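import Mathlib

/-! # One vertex: the key inequality

`F = X / (s + X)`, `X = β - U`.  The function `F` lies below a harmonic function (an affine
function of `U` and of the height) which touches it at a given point. -/

namespace Vale.Agent.P097.H719.OV

theorem log_le {t : ℝ} (ht : |t| ≤ 1 / 4) : Real.log (1 + t) ≤ t - t ^ 2 / 4 := by
  have h1 : |(-t)| < 1 := by rw [abs_neg]; linarith
  have h2 := Real.abs_log_sub_add_sum_range_le h1 3
  rw [abs_neg] at h2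
  norm_num [Finset.sum_range_succ] at h2
  have h0 := abs_nonneg t
  have h3 : |t| ^ 4 / (1 - |t|) ≤ t ^ 2 / 12 := by
    rw [div_le_div_iff₀ (by linarith) (by norm_num)]
    have h4 : |t| ^ 4 = t ^ 2 * |t| ^ 2 := by rw [← sq_abs t]; ring
    have h5 : |t| ^ 2 ≤ 1 / 16 := by nlinarith
    rw [h4]
    nlinarith [mul_le_mul_of_nonneg_left h5 (sq_nonneg t), mul_nonneg (sq_nonneg t) h0,
      mul_le_mul_of_nonneg_left ht (sq_nonneg t)]
  have h6 : t ^ 3 ≤ t ^ 2 / 4 := by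
    have h7 : t ^ 3 = t ^ 2 * t := by ring
    rw [h7]
    nlinarith [mul_le_mul_of_nonneg_left ((le_abs_self t).trans ht) (sq_nonneg t)]
  have h8 := (abs_le.mp h2).2
  nlinarith

theorem abs_log_le {t : ℝ} (ht : |t| ≤ 1 / 4) : |Real.log (1 + t)| ≤ 2 * |t| := by
  obtain ⟨h1, h2⟩ := abs_le.mp ht
  have hpos : 0 < 1 + t := by linarith
  rw [abs_le]
  constructor
  · have h3 := Real.one_sub_inv_le_log_of_pos hpos
    have h4 : 1 - (1 + t)⁻¹ = t / (1 + t) := by field_simp; ring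
    rw [h4] at h3
    refine le_trans ?_ h3
    rw [le_div_iff₀ hpos]
    rcases le_or_gt 0 t with h0 | h0
    · rw [abs_of_nonneg h0]; nlinarith
    · rw [abs_of_neg h0]; nlinarith
  · have h3 := Real.log_le_sub_one_of_pos hpos
    have := le_abs_self t
    have := abs_nonneg t
    linarith

/-- The key inequality.  Here `t = v / v₀ - 1`, `s = s₀ - log (1 + t)`. -/
theorem key {a s₀ s β₀ β U₀ U t : ℝ} (hs₀ : 0 < s₀) (ht : |t| ≤ 1 / 4)
    (hs : s = s₀ - Real.log (1 + t)) (hspos : 0 < s)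
    (hβ : β ≤ β₀ * (1 + a * (s - s₀) / s₀)) (hX₀ : 0 ≤ β₀ - U₀) (hX : 0 ≤ β - U)
    (hβ₀ : 0 ≤ a * β₀)
    (hc : 5 * (1 + (β₀ - U₀) / s₀) ≤ (β₀ - U₀) - a * β₀) :
    (β - U) / (s + (β - U)) ≤ (β₀ - U₀) / (s₀ + (β₀ - U₀)) +
      s₀ / (s₀ + (β₀ - U₀)) ^ 2 *
        (-(U - U₀) + ((β₀ - U₀) / s₀ - a * β₀ / s₀) * t) := by
  have hlog := log_le ht
  have habs := abs_log_le ht
  obtain ⟨h1, h2⟩ := abs_le.mp ht
  obtain ⟨L, hL⟩ : ∃ L, L = Real.log (1 + t) := ⟨_, rfl⟩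
  rw [← hL] at hs hlog habs
  obtain ⟨X₀, hX₀'⟩ : ∃ X₀, X₀ = β₀ - U₀ := ⟨_, rfl⟩
  obtain ⟨X, hX'⟩ : ∃ X, X = β - U := ⟨_, rfl⟩
  rw [← hX₀'] at hX₀ hc ⊢
  rw [← hX'] at hX ⊢
  obtain ⟨w, hw⟩ : ∃ w, w = X₀ / s₀ := ⟨_, rfl⟩
  obtain ⟨e, he⟩ : ∃ e, e = a * β₀ / s₀ := ⟨_, rfl⟩
  have hXw : X₀ = w * s₀ := by rw [hw]; field_simp
  have hew : a * β₀ = e * s₀ := by rw [he]; field_simp
  have hw0 : 0 ≤ w := by rw [hw]; positivity
  have he0 : 0 ≤ e := by rw [he]; positivity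
  rw [← hw] at hc ⊢
  rw [← he]
  -- the gain
  obtain ⟨c, hcdef⟩ : ∃ c, c = w - e := ⟨_, rfl⟩
  rw [← hcdef]
  have hcs : 5 * (1 + w) ≤ c * s₀ := by
    rw [hcdef]; rw [hXw, hew] at hc; linarith
  have hc0 : 0 < c := by
    by_contra hneg
    push Not at hneg
    have := mul_nonpos_of_nonpos_of_nonneg hneg hs₀.le
    linarith
  have hcw : c ≤ w := by rw [hcdef]; linarith
  -- `Y`
  obtain ⟨Y, hY⟩ : ∃ Y, Y = (X - X₀) + w * L := ⟨_, rfl⟩
  have hYle : Y ≤ -(U - U₀) + c * t - c * t ^ 2 / 4 := by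
    have h3 : β - β₀ ≤ e * (s - s₀) := by
      have h4 : β₀ * (1 + a * (s - s₀) / s₀) = β₀ + e * (s - s₀) := by
        rw [he]; field_simp
      linarith [hβ, h4]
    have h5 : X - X₀ = (β - β₀) - (U - U₀) := by rw [hX', hX₀']; ring
    have h6 : s - s₀ = -L := by rw [hs]; ring
    rw [h6] at h3
    have h7 : c * L ≤ c * (t - t ^ 2 / 4) := mul_le_mul_of_nonneg_left hlog hc0.le
    have h8 : Y ≤ -(U - U₀) + c * L := by
      rw [hY, h5, hcdef]; nlinarith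
    nlinarith
  -- the two denominators
  have hT₀ : 0 < s₀ + X₀ := by linarith
  have hT : 0 < s + X := by linarith
  have hTT : s + X = s₀ + X₀ + Y - (1 + w) * L := by rw [hY, hs]; ring
  -- discriminant
  obtain ⟨g, hg⟩ : ∃ g, g = c * t ^ 2 / 4 := ⟨_, rfl⟩
  have hg0 : 0 ≤ g := by rw [hg]; positivity
  have hLt : L ^ 2 ≤ 4 * t ^ 2 := by
    have := sq_le_sq' (by linarith [abs_nonneg L, abs_nonneg t]) habs
    rw [sq_abs, mul_pow, sq_abs] at this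
    linarith
  have hgw : g ≤ (1 + w) * |t| / 16 := by
    rw [hg, ← sq_abs t]
    have h9 : c * |t| ^ 2 ≤ (1 + w) * (|t| * (1 / 4)) := by
      have h10 : |t| ^ 2 ≤ |t| * (1 / 4) := by
        rw [sq]; exact mul_le_mul_of_nonneg_left ht (abs_nonneg t)
      calc c * |t| ^ 2 ≤ (1 + w) * |t| ^ 2 :=
            mul_le_mul_of_nonneg_right (by linarith) (by positivity)
        _ ≤ (1 + w) * (|t| * (1 / 4)) := mul_le_mul_of_nonneg_left h10 (by linarith)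
    linarith
  have hdisc : ((1 + w) * L + g) ^ 2 ≤ 4 * g * (s₀ + X₀) := by
    have h11 : |(1 + w) * L + g| ≤ (1 + w) * (2 * |t|) + (1 + w) * |t| / 16 := by
      calc |(1 + w) * L + g| ≤ |(1 + w) * L| + |g| := abs_add_le _ _
        _ = (1 + w) * |L| + g := by rw [abs_mul, abs_of_nonneg (by linarith : 0 ≤ 1 + w),
            abs_of_nonneg hg0]
        _ ≤ _ := add_le_add (mul_le_mul_of_nonneg_left habs (by linarith)) hgw
    have h12 : ((1 + w) * L + g) ^ 2 ≤ ((1 + w) * (2 * |t|) + (1 + w) * |t| / 16) ^ 2 := by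
      rw [← sq_abs]
      exact pow_le_pow_left₀ (abs_nonneg _) h11 2
    have h13 : ((1 + w) * (2 * |t|) + (1 + w) * |t| / 16) ^ 2 ≤ 5 * (1 + w) ^ 2 * t ^ 2 := by
      have : ((1 + w) * (2 * |t|) + (1 + w) * |t| / 16) ^ 2 =
          (33 / 16) ^ 2 * (1 + w) ^ 2 * |t| ^ 2 := by ring
      rw [this, sq_abs]
      have hP := mul_nonneg (sq_nonneg (1 + w)) (sq_nonneg t)
      calc (33 / 16) ^ 2 * (1 + w) ^ 2 * t ^ 2 = (33 / 16) ^ 2 * ((1 + w) ^ 2 * t ^ 2) := by ring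
        _ ≤ 5 * ((1 + w) ^ 2 * t ^ 2) := mul_le_mul_of_nonneg_right (by norm_num) hP
        _ = 5 * (1 + w) ^ 2 * t ^ 2 := by ring
    have h14 : 4 * g * (s₀ + X₀) = (c * s₀) * (1 + w) * t ^ 2 := by
      rw [hg, hXw]; ring
    rw [h14]
    have h15 : 5 * (1 + w) ^ 2 * t ^ 2 ≤ (c * s₀) * (1 + w) * t ^ 2 := by
      have h16 := mul_le_mul_of_nonneg_right hcs
        (mul_nonneg (by linarith : 0 ≤ 1 + w) (sq_nonneg t))
      calc 5 * (1 + w) ^ 2 * t ^ 2 = 5 * (1 + w) * ((1 + w) * t ^ 2) := by ring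
        _ ≤ c * s₀ * ((1 + w) * t ^ 2) := h16
        _ = (c * s₀) * (1 + w) * t ^ 2 := by ring
    exact h12.trans (h13.trans h15)
  -- `Y T₀ ≤ H T`
  obtain ⟨H, hH⟩ : ∃ H, H = -(U - U₀) + c * t := ⟨_, rfl⟩
  have hYH : Y + g ≤ H := by rw [hH, hg]; linarith
  have hmain : Y * (s₀ + X₀) ≤ H * (s + X) := by
    have h16 : (Y + g) * (s + X) ≤ H * (s + X) := mul_le_mul_of_nonneg_right hYH hT.le
    have h17 : Y * (s₀ + X₀) ≤ (Y + g) * (s + X) := by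
      rw [hTT]
      have hid : 4 * ((Y + g) * (s₀ + X₀ + Y - (1 + w) * L) - Y * (s₀ + X₀)) =
          (2 * Y + (g - (1 + w) * L)) ^ 2 +
            (4 * g * (s₀ + X₀) - ((1 + w) * L + g) ^ 2) := by ring
      have hsq := sq_nonneg (2 * Y + (g - (1 + w) * L))
      linarith
    linarith
  have hdiff : X / (s + X) - X₀ / (s₀ + X₀) = s₀ * Y / ((s + X) * (s₀ + X₀)) := by
    rw [div_sub_div _ _ hT.ne' hT₀.ne']
    congr 1
    rw [hY, hs, hXw]
    ring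
  have hfin : s₀ * Y / ((s + X) * (s₀ + X₀)) ≤ s₀ / (s₀ + X₀) ^ 2 * H := by
    rw [div_mul_eq_mul_div, div_le_div_iff₀ (by positivity) (by positivity)]
    have h18 : s₀ * Y * (s₀ + X₀) ^ 2 = s₀ * (s₀ + X₀) * (Y * (s₀ + X₀)) := by ring
    have h19 : s₀ * H * ((s + X) * (s₀ + X₀)) = s₀ * (s₀ + X₀) * (H * (s + X)) := by ring
    rw [h18, h19]
    exact mul_le_mul_of_nonneg_left hmain (by positivity)
  rw [← hH]
  linarith

end Vale.Agent.P097.H719.OV
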