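import Vale.Agent.P097.H877.Bd.Priv

/-! # One vertex: sums of Green functions with disjoint shadows -/

open Complex Metric Filter Topology Set MeasureTheory

namespace Vale.Agent.P097.H719.OV

open Vale.Agent.P097.H877.Bd

/-- Green function of the upper half plane with pole `c`. -/
noncomputable def gr (c x : ℂ) : ℝ := Real.log (‖x - (starRingEnd ℂ) c‖ / ‖x - c‖)

theorem normSq_sub (x c : ℂ) : ‖x - c‖ ^ 2 = (x.re - c.re) ^ 2 + (x.im - c.im) ^ 2 := by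
  rw [← Complex.normSq_eq_norm_sq, Complex.normSq_apply]
  simp only [Complex.sub_re, Complex.sub_im]
  ring

theorem normSq_sub_conj (x c : ℂ) :
    ‖x - (starRingEnd ℂ) c‖ ^ 2 = (x.re - c.re) ^ 2 + (x.im + c.im) ^ 2 := by
  rw [normSq_sub]
  simp only [Complex.conj_re, Complex.conj_im]
  ring

theorem two_gr {x c : ℂ} (hxc : x ≠ c) :
    2 * gr c x = Real.log (1 + 4 * x.im * c.im / ‖x - c‖ ^ 2) := by
  have h0 : 0 < ‖x - c‖ := norm_pos_iff.mpr (sub_ne_zero.mpr hxc)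
  have h1 : 1 + 4 * x.im * c.im / ‖x - c‖ ^ 2 = (‖x - (starRingEnd ℂ) c‖ / ‖x - c‖) ^ 2 := by
    rw [div_pow, normSq_sub_conj]
    have h2 : (0 : ℝ) < ‖x - c‖ ^ 2 := by positivity
    rw [eq_div_iff h2.ne', add_mul, div_mul_cancel₀ _ h2.ne', one_mul, normSq_sub]
    ring
  rw [h1, Real.log_pow]
  simp [gr]

theorem gr_nonneg {x c : ℂ} (hx : 0 < x.im) (hc : 0 < c.im) (hxc : x ≠ c) : 0 ≤ gr c x := by
  have h1 := two_gr hxc
  have h0 : 0 < ‖x - c‖ := norm_pos_iff.mpr (sub_ne_zero.mpr hxc)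
  have h2 : 0 ≤ Real.log (1 + 4 * x.im * c.im / ‖x - c‖ ^ 2) := by
    apply Real.log_nonneg
    have : 0 ≤ 4 * x.im * c.im / ‖x - c‖ ^ 2 := by positivity
    linarith
  linarith

theorem gr_le {x c : ℂ} (hx : 0 < x.im) (hc : 0 < c.im) (hxc : x ≠ c) :
    gr c x ≤ 2 * x.im * c.im / ‖x - c‖ ^ 2 := by
  have h1 := two_gr hxc
  have h0 : 0 < ‖x - c‖ := norm_pos_iff.mpr (sub_ne_zero.mpr hxc)
  have h2 : Real.log (1 + 4 * x.im * c.im / ‖x - c‖ ^ 2) ≤ 4 * x.im * c.im / ‖x - c‖ ^ 2 := by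
    have h3 : 0 < 1 + 4 * x.im * c.im / ‖x - c‖ ^ 2 := by
      have : 0 ≤ 4 * x.im * c.im / ‖x - c‖ ^ 2 := by positivity
      linarith
    have := Real.log_le_sub_one_of_pos h3
    linarith
  have h4 : 4 * x.im * c.im / ‖x - c‖ ^ 2 = 2 * (2 * x.im * c.im / ‖x - c‖ ^ 2) := by ring
  linarith

/-- the shadow of `c` -/
def sh (c : ℂ) : Set ℝ := closedBall c.re c.im

theorem setIntegral_sh_ge {x c : ℂ} (hx : 0 < x.im) (hc : 0 < c.im) :
    c.im * x.im / ‖x - (starRingEnd ℂ) c‖ ^ 2 ≤ ∫ t in sh c, pk x t := by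
  have hA : 0 < ‖x - (starRingEnd ℂ) c‖ ^ 2 := by
    rw [normSq_sub_conj]; positivity
  have hvol : (volume (sh c)).toReal = 2 * c.im := by
    rw [sh, Real.volume_closedBall, ENNReal.toReal_ofReal (by positivity)]
  have h1 : ∫ t in sh c, (x.im / (2 * ‖x - (starRingEnd ℂ) c‖ ^ 2)) ≤ ∫ t in sh c, pk x t := by
    refine setIntegral_mono_on ?_ (integrable_pk hx).integrableOn measurableSet_closedBall ?_
    · exact integrableOn_const (by rw [sh]; exact (isCompact_closedBall _ _).measure_lt_top.ne)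
    · intro t ht
      rw [sh, mem_closedBall, Real.dist_eq] at ht
      unfold pk
      have h2 : (t - x.re) ^ 2 + x.im ^ 2 ≤ 2 * ‖x - (starRingEnd ℂ) c‖ ^ 2 := by
        rw [normSq_sub_conj]
        have h3 := sq_abs (t - c.re)
        have h4 : (t - c.re) ^ 2 ≤ c.im ^ 2 := by
          rw [← h3]; exact pow_le_pow_left₀ (abs_nonneg _) ht 2
        nlinarith [sq_nonneg ((t - c.re) + (x.re - c.re)), mul_pos hx hc]
      exact div_le_div_of_nonneg_left hx.le (by positivity) h2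
  rw [setIntegral_const, smul_eq_mul, Measure.real, hvol] at h1
  refine le_trans (le_of_eq ?_) h1
  field_simp

theorem gr_le_sh {ρ : ℝ} (hρ : 0 < ρ) (hρ1 : ρ ≤ 1) {x c : ℂ} (hx : 0 < x.im) (hc : 0 < c.im)
    (hfar : ρ / 2 * c.im ≤ ‖x - c‖) : gr c x ≤ 50 / ρ ^ 2 * ∫ t in sh c, pk x t := by
  have hB : 0 < ‖x - c‖ := lt_of_lt_of_le (by positivity) hfar
  have hxc : x ≠ c := fun h => by rw [h, sub_self, norm_zero] at hB; exact lt_irrefl _ hB
  have h1 := gr_le hx hc hxc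
  have h2 := setIntegral_sh_ge hx hc
  have hA : 0 < ‖x - (starRingEnd ℂ) c‖ ^ 2 := by rw [normSq_sub_conj]; positivity
  have h3 : ‖x - (starRingEnd ℂ) c‖ ≤ 5 / ρ * ‖x - c‖ := by
    have h4 : ‖x - (starRingEnd ℂ) c‖ ≤ ‖x - c‖ + 2 * c.im := by
      have h5 : x - (starRingEnd ℂ) c = (x - c) + (c - (starRingEnd ℂ) c) := by ring
      rw [h5]
      refine (norm_add_le _ _).trans ?_
      have h6 : ‖c - (starRingEnd ℂ) c‖ = 2 * c.im := by
        have h7 : c - (starRingEnd ℂ) c = ((2 * c.im : ℝ) : ℂ) * I := by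
          apply Complex.ext <;> simp
          ring
        rw [h7, norm_mul, Complex.norm_I, mul_one, Complex.norm_real, Real.norm_eq_abs,
          abs_of_pos (by positivity)]
      rw [h6]
    have h8 : 2 * c.im ≤ 4 / ρ * ‖x - c‖ := by
      rw [div_mul_eq_mul_div, le_div_iff₀ hρ]
      nlinarith
    have h9 : ‖x - c‖ ≤ 1 / ρ * ‖x - c‖ := by
      refine le_mul_of_one_le_left hB.le ?_
      rw [le_div_iff₀ hρ]; linarith
    have h10 : 5 / ρ * ‖x - c‖ = 1 / ρ * ‖x - c‖ + 4 / ρ * ‖x - c‖ := by ring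
    linarith
  have h11 : ‖x - (starRingEnd ℂ) c‖ ^ 2 ≤ 25 / ρ ^ 2 * ‖x - c‖ ^ 2 := by
    have := pow_le_pow_left₀ (norm_nonneg _) h3 2
    refine this.trans (le_of_eq ?_)
    rw [mul_pow, div_pow]; norm_num
  have h12 : 2 * x.im * c.im / ‖x - c‖ ^ 2 ≤
      50 / ρ ^ 2 * (c.im * x.im / ‖x - (starRingEnd ℂ) c‖ ^ 2) := by
    rw [mul_div_assoc', div_mul_eq_mul_div, div_le_div_iff₀ (by positivity) hA]
    have h13 : 50 / ρ ^ 2 * (c.im * x.im) * ‖x - c‖ ^ 2 =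
        2 * x.im * c.im * (25 / ρ ^ 2 * ‖x - c‖ ^ 2) := by ring
    have h14 : 2 * x.im * c.im * ‖x - (starRingEnd ℂ) c‖ ^ 2 ≤
        2 * x.im * c.im * (25 / ρ ^ 2 * ‖x - c‖ ^ 2) :=
      mul_le_mul_of_nonneg_left h11 (by positivity)
    calc 2 * x.im * c.im * ‖x - (starRingEnd ℂ) c‖ ^ 2
        ≤ 2 * x.im * c.im * (25 / ρ ^ 2 * ‖x - c‖ ^ 2) := h14
      _ = 50 * (c.im * x.im) / ρ ^ 2 * ‖x - c‖ ^ 2 := by ring
  calc gr c x ≤ 2 * x.im * c.im / ‖x - c‖ ^ 2 := h1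
    _ ≤ 50 / ρ ^ 2 * (c.im * x.im / ‖x - (starRingEnd ℂ) c‖ ^ 2) := h12
    _ ≤ 50 / ρ ^ 2 * ∫ t in sh c, pk x t := mul_le_mul_of_nonneg_left h2 (by positivity)

/-- (H1) -/
theorem sum_gr_le {J : Finset ℂ} (hJ : ∀ c ∈ J, 0 < c.im)
    (hdis : (J : Set ℂ).PairwiseDisjoint sh) {ρ : ℝ} (hρ : 0 < ρ) (hρ1 : ρ ≤ 1) {x : ℂ}
    (hx : 0 < x.im) (hfar : ∀ c ∈ J, ρ / 2 * c.im ≤ ‖x - c‖) :
    ∑ c ∈ J, gr c x ≤ 50 / ρ ^ 2 * Real.pi := by
  calc ∑ c ∈ J, gr c x ≤ ∑ c ∈ J, 50 / ρ ^ 2 * ∫ t in sh c, pk x t :=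
        Finset.sum_le_sum fun c hc => gr_le_sh hρ hρ1 hx (hJ c hc) (hfar c hc)
    _ = 50 / ρ ^ 2 * ∑ c ∈ J, ∫ t in sh c, pk x t := by rw [Finset.mul_sum]
    _ = 50 / ρ ^ 2 * ∫ t in ⋃ c ∈ J, sh c, pk x t := by
        rw [integral_biUnion_finset (s := sh) J (fun c _ => measurableSet_closedBall) hdis
          (fun c _ => (integrable_pk hx).integrableOn)]
    _ ≤ 50 / ρ ^ 2 * Real.pi :=
        mul_le_mul_of_nonneg_left (setIntegral_pk_le hx) (by positivity)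

/-- (H3) -/
theorem sum_gr_le_im {J : Finset ℂ} (hJ : ∀ c ∈ J, 0 < c.im) {ρ : ℝ} (hρ : 0 < ρ) {x : ℂ}
    (hx : 0 < x.im) (hfar : ∀ c ∈ J, ρ * c.im ≤ ‖x - c‖) :
    ∑ c ∈ J, gr c x ≤ (∑ c ∈ J, 2 / (ρ ^ 2 * c.im)) * x.im := by
  rw [Finset.sum_mul]
  refine Finset.sum_le_sum fun c hc => ?_
  have hci := hJ c hc
  have hB : 0 < ‖x - c‖ := lt_of_lt_of_le (by positivity) (hfar c hc)
  have hxc : x ≠ c := fun h => by rw [h, sub_self, norm_zero] at hB; exact lt_irrefl _ hB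
  refine (gr_le hx hci hxc).trans ?_
  have h1 : (ρ * c.im) ^ 2 ≤ ‖x - c‖ ^ 2 := pow_le_pow_left₀ (by positivity) (hfar c hc) 2
  calc 2 * x.im * c.im / ‖x - c‖ ^ 2 ≤ 2 * x.im * c.im / (ρ * c.im) ^ 2 :=
        div_le_div_of_nonneg_left (by positivity) (by positivity) h1
    _ = 2 / (ρ ^ 2 * c.im) * x.im := by field_simp

theorem gr_ge {x c : ℂ} (hc : 0 < c.im) (hx : 2 * c.im ≤ x.im) :
    ∫ t in closedBall c.re (5 * c.im), pk x t ≤ 630 * gr c x := by
  have hx0 : 0 < x.im := by linarith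
  have hB : 0 < ‖x - c‖ ^ 2 := by
    rw [normSq_sub]
    have : 0 < x.im - c.im := by linarith
    positivity
  have hxc : x ≠ c := fun h => by rw [h, sub_self, norm_zero] at hB; norm_num at hB
  have h1 := two_gr hxc
  have hu0 : 0 ≤ 4 * x.im * c.im / ‖x - c‖ ^ 2 := by positivity
  have hu8 : 4 * x.im * c.im / ‖x - c‖ ^ 2 ≤ 8 := by
    rw [div_le_iff₀ hB, normSq_sub]
    nlinarith [sq_nonneg (x.re - c.re), mul_nonneg (sub_nonneg.mpr hx) hc.le,
      mul_nonneg (sub_nonneg.mpr hx) hx0.le]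
  obtain ⟨u, hu⟩ : ∃ u, u = 4 * x.im * c.im / ‖x - c‖ ^ 2 := ⟨_, rfl⟩
  rw [← hu] at h1 hu0 hu8
  have h2 : u / 9 ≤ Real.log (1 + u) := by
    have h3 := Real.one_sub_inv_le_log_of_pos (show 0 < 1 + u by linarith)
    have h4 : 1 - (1 + u)⁻¹ = u / (1 + u) := by
      have : 1 + u ≠ 0 := by linarith
      field_simp; ring
    rw [h4] at h3
    refine le_trans ?_ h3
    exact div_le_div_of_nonneg_left hu0 (by linarith) (by linarith)
  have h5 : ∫ t in closedBall c.re (5 * c.im), pk x t ≤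
      ∫ t in closedBall c.re (5 * c.im), (14 * x.im / ‖x - c‖ ^ 2) := by
    refine setIntegral_mono_on (integrable_pk hx0).integrableOn
      (integrableOn_const (isCompact_closedBall _ _).measure_lt_top.ne)
      measurableSet_closedBall ?_
    intro t ht
    rw [mem_closedBall, Real.dist_eq] at ht
    have h6 : (t - c.re) ^ 2 ≤ (5 * c.im) ^ 2 := by
      rw [← sq_abs (t - c.re)]; exact pow_le_pow_left₀ (abs_nonneg _) ht 2
    unfold pk
    rw [div_le_div_iff₀ (by positivity) hB, normSq_sub]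
    have h7 : (x.re - c.re) ^ 2 + (x.im - c.im) ^ 2 ≤
        14 * ((t - x.re) ^ 2 + x.im ^ 2) := by
      nlinarith [sq_nonneg ((t - c.re) + (t - x.re)), mul_nonneg (sub_nonneg.mpr hx) hc.le,
        mul_nonneg (sub_nonneg.mpr hx) hx0.le]
    nlinarith [mul_le_mul_of_nonneg_left h7 hx0.le]
  rw [setIntegral_const, smul_eq_mul, Measure.real, Real.volume_closedBall,
    ENNReal.toReal_ofReal (by positivity)] at h5
  refine h5.trans ?_
  have h8 : 2 * (5 * c.im) * (14 * x.im / ‖x - c‖ ^ 2) = 35 * u := by rw [hu]; ring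
  rw [h8]
  linarith

theorem setIntegral_biUnion_le {x : ℂ} (hx : 0 < x.im) (J : Finset ℂ) :
    ∫ t in ⋃ c ∈ J, closedBall c.re (5 * c.im), pk x t ≤
      ∑ c ∈ J, ∫ t in closedBall c.re (5 * c.im), pk x t := by
  classical
  induction J using Finset.induction_on with
  | empty => simp
  | insert a J ha ih =>
    have hsplit : (⋃ c ∈ insert a J, closedBall c.re (5 * c.im) : Set ℝ) =
        closedBall a.re (5 * a.im) ∪ ⋃ c ∈ J, closedBall c.re (5 * c.im) := by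
      simp
    rw [hsplit, Finset.sum_insert ha]
    have hm : MeasurableSet (⋃ c ∈ J, closedBall c.re (5 * c.im) : Set ℝ) :=
      Finset.measurableSet_biUnion _ fun c _ => measurableSet_closedBall
    have h3 : ∫ t in closedBall a.re (5 * a.im) ∪ ⋃ c ∈ J, closedBall c.re (5 * c.im), pk x t ≤
        (∫ t in closedBall a.re (5 * a.im), pk x t) +
          ∫ t in ⋃ c ∈ J, closedBall c.re (5 * c.im), pk x t := by
      rw [← union_sdiff_self,
        setIntegral_union disjoint_sdiff_self_right (hm.diff measurableSet_closedBall)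
          (integrable_pk hx).integrableOn (integrable_pk hx).integrableOn]
      refine add_le_add le_rfl ?_
      exact setIntegral_mono_set (integrable_pk hx).integrableOn
        (Eventually.of_forall fun t => (pk_pos hx t).le) (sdiff_subset).eventuallyLE
    exact h3.trans (add_le_add le_rfl ih)

/-- (H2) -/
theorem cau_le_sum_gr {J : Finset ℂ} (hJ : ∀ c ∈ J, 0 < c.im) {A : Set ℝ} (hA : IsCompact A)
    (hcov : A ⊆ ⋃ c ∈ J, closedBall c.re (5 * c.im)) {x : ℂ} (hx : 0 < x.im)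
    (hhigh : ∀ c ∈ J, 2 * c.im ≤ x.im) : (cau A x).im ≤ 630 * ∑ c ∈ J, gr c x := by
  rw [cau_im hA.measure_lt_top.ne hx]
  have h1 : ∫ t in A, pk x t ≤ ∫ t in ⋃ c ∈ J, closedBall c.re (5 * c.im), pk x t :=
    setIntegral_mono_set (integrable_pk hx).integrableOn
      (Eventually.of_forall fun t => (pk_pos hx t).le) hcov.eventuallyLE
  refine h1.trans ((setIntegral_biUnion_le hx J).trans ?_)
  rw [Finset.mul_sum]
  exact Finset.sum_le_sum fun c hc => gr_ge (hJ c hc) (hhigh c hc)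

/-- the holomorphic branch -/
noncomputable def grH (x₀ c x : ℂ) : ℂ :=
  Complex.log ((x - (starRingEnd ℂ) c) / (x₀ - (starRingEnd ℂ) c)) -
    Complex.log ((x - c) / (x₀ - c)) + (gr c x₀ : ℝ)

theorem slit_aux {x₀ c x : ℂ} (h : ‖x - x₀‖ < ‖x₀ - c‖) : (x - c) / (x₀ - c) ∈ slitPlane := by
  have h0 : 0 < ‖x₀ - c‖ := (norm_nonneg _).trans_lt h
  have hne : x₀ - c ≠ 0 := norm_pos_iff.mp h0
  have h1 : (x - c) / (x₀ - c) = 1 + (x - x₀) / (x₀ - c) := by field_simp; ring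
  rw [h1]
  apply Complex.mem_slitPlane_of_norm_lt_one
  rw [norm_div, div_lt_one h0]
  exact h

theorem conj_far {x₀ c : ℂ} (hx : 0 < x₀.im) (hc : 0 < c.im) :
    ‖x₀ - c‖ ≤ ‖x₀ - (starRingEnd ℂ) c‖ := by
  have h := normSq_sub x₀ c
  have h' := normSq_sub_conj x₀ c
  have h2 : ‖x₀ - c‖ ^ 2 ≤ ‖x₀ - (starRingEnd ℂ) c‖ ^ 2 := by
    rw [h, h']; nlinarith [mul_pos hx hc]
  exact (pow_le_pow_iff_left₀ (norm_nonneg _) (norm_nonneg _) two_ne_zero).mp h2

theorem differentiableAt_grH {x₀ c x : ℂ} (hx₀ : 0 < x₀.im) (hc : 0 < c.im)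
    (h : ‖x - x₀‖ < ‖x₀ - c‖) : DifferentiableAt ℂ (grH x₀ c) x := by
  have h1 := slit_aux h
  have h2 := slit_aux (h.trans_le (conj_far hx₀ hc))
  have d1 : DifferentiableAt ℂ
      (fun x : ℂ => (x - (starRingEnd ℂ) c) / (x₀ - (starRingEnd ℂ) c)) x := by fun_prop
  have d2 : DifferentiableAt ℂ (fun x : ℂ => (x - c) / (x₀ - c)) x := by fun_prop
  exact ((d1.clog h2).sub (d2.clog h1)).add_const _

theorem grH_re {x₀ c x : ℂ} (hx₀ : 0 < x₀.im) (hc : 0 < c.im)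
    (h : ‖x - x₀‖ < ‖x₀ - c‖) : (grH x₀ c x).re = gr c x := by
  have h0 : 0 < ‖x₀ - c‖ := (norm_nonneg _).trans_lt h
  have h0' : 0 < ‖x₀ - (starRingEnd ℂ) c‖ := h0.trans_le (conj_far hx₀ hc)
  have h1 : ‖x - c‖ ≠ 0 := by
    have := slitPlane_ne_zero (slit_aux h)
    intro h2
    rw [norm_eq_zero] at h2
    rw [h2, zero_div] at this
    exact this rfl
  have h1' : ‖x - (starRingEnd ℂ) c‖ ≠ 0 := by
    have := slitPlane_ne_zero (slit_aux (h.trans_le (conj_far hx₀ hc)))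
    intro h2
    rw [norm_eq_zero] at h2
    rw [h2, zero_div] at this
    exact this rfl
  unfold grH gr
  simp only [Complex.add_re, Complex.sub_re, Complex.log_re, norm_div, Complex.ofReal_re]
  rw [Real.log_div h1' h0'.ne', Real.log_div h1 h0.ne', Real.log_div h0'.ne' h0.ne',
    Real.log_div h1' h1]
  ring

end Vale.Agent.P097.H719.OV
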