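import Vale.Agent.P097.H719.OV1
import Vale.Agent.P097.H719.OV2

/-! # One vertex: the maximum principle -/

open Complex Metric Filter Topology Set MeasureTheory

namespace Vale.Agent.P097.H719.OV

open Vale.Agent.P097.H877.Bd

/-- the maximum principle on `{‖θ - θ z₀‖ < r}` -/
theorem maxN {k h : ℝ} (hk : 0 < k) (hh : 0 < h) {K : Set ℝ} (hK : IsCompact K) {θ : ℂ → ℂ}
    (hθ : DifferentiableOn ℂ θ (saw k h K)) (hpos : ∀ z ∈ saw k h K, 0 < (θ z).im)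
    (hunif : ∀ ε > 0, ∃ δ > 0, ∀ x ∈ K, ∀ z ∈ cone k δ x, z ∈ saw k h K → (θ z).im ≤ ε)
    (hsmall : (volume K).toReal / (h / 2) ≤ Real.pi - 2 * Real.arctan (k / 2))
    {z₀ : ℂ} (hz₀ : z₀ ∈ saw (k / 2) (h / 2) K) {r : ℝ} (hr0 : 0 < r)
    (hr : r ≤ (θ z₀).im / 4) {Γ : ℂ → ℂ} {M : ℝ}
    (hΓ : ∀ ζ ∈ saw k h K, ‖θ ζ - θ z₀‖ ≤ r → DifferentiableAt ℂ Γ ζ)
    (hb1 : ∀ ζ ∈ saw k h K, ‖θ ζ - θ z₀‖ = r → ζ ∈ saw (k / 2) (h / 2) K → (Γ ζ).re ≤ M)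
    (hb2 : ∀ ζ ∈ saw k h K, ‖θ ζ - θ z₀‖ ≤ r →
      2 * Real.arctan (k / 2) ≤ Real.pi - (cau K ζ).im → (Γ ζ).re ≤ M) :
    (Γ z₀).re ≤ M := by
  have hKf : volume K ≠ ⊤ := hK.measure_lt_top.ne
  have hk2 : 0 < k / 2 := by positivity
  have hsub : saw (k / 2) (h / 2) K ⊆ saw k h K :=
    saw_mono hk2 (by linarith) (by linarith) subset_rfl
  have hv₀ : 0 < (θ z₀).im := hpos z₀ (hsub hz₀)
  set N : Set ℂ := {z | z ∈ saw (k / 2) (h / 2) K ∧ ‖θ z - θ z₀‖ < r} with hN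
  have hNsub : N ⊆ saw (k / 2) (h / 2) K := fun z hz => hz.1
  have hNo : IsOpen N := by
    have hc : ContinuousOn (fun z => ‖θ z - θ z₀‖) (saw (k / 2) (h / 2) K) :=
      ((hθ.continuousOn.mono hsub).sub continuousOn_const).norm
    exact hc.isOpen_inter_preimage (isOpen_saw _ _ _) (isOpen_Iio (a := r))
  have hNb : Bornology.IsBounded N := (isBounded_saw hk2 hK.isBounded).subset hNsub
  have hexp : DifferentiableOn ℂ (fun z => Complex.exp (Γ z)) N := fun z hz =>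
    (hΓ z (hsub hz.1) hz.2.le).cexp.differentiableWithinAt
  have key := norm_le_of_frontier hNb hNo hexp (C := Real.exp M) ?_ z₀
    ⟨hz₀, by simpa using hr0⟩
  · rw [Complex.norm_exp] at key
    exact Real.exp_le_exp.mp key
  intro ζ hζ δ hδ
  rw [hNo.frontier_eq] at hζ
  obtain ⟨x, hxK, hx1, hx2⟩ := closure_saw hK (closure_mono hNsub hζ.1)
  have him : 0 ≤ ζ.im := by
    have := (abs_nonneg _).trans hx1
    by_contra hneg
    push Not at hneg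
    nlinarith
  rcases him.eq_or_lt with him | him
  · -- real points: `N` stays away
    obtain ⟨d, hd, hdf⟩ := hunif ((θ z₀).im / 2) (by positivity)
    have h2 : ∀ᶠ z : ℂ in 𝓝 ζ, z.im < d :=
      (isOpen_lt Complex.continuous_im continuous_const).mem_nhds (by
        show ζ.im < d
        rw [← him]; exact hd)
    filter_upwards [mem_nhdsWithin_of_mem_nhds h2, self_mem_nhdsWithin] with z hz1 hz2
    exfalso
    obtain ⟨y, hyK, hy⟩ := mem_saw.mp hz2.1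
    have hzim := cone_im_pos hk2 hy
    have h3 : (θ z).im ≤ (θ z₀).im / 2 := by
      refine hdf y hyK z ⟨?_, hz1⟩ (hsub hz2.1)
      have := hy.1
      nlinarith
    have h4 : |(θ z - θ z₀).im| ≤ ‖θ z - θ z₀‖ := Complex.abs_im_le_norm _
    have h5 := (abs_le.mp (h4.trans hz2.2.le)).1
    rw [Complex.sub_im] at h5
    linarith
  · -- points of the upper half plane
    have hζs : ζ ∈ saw k h K := by
      refine mem_saw.mpr ⟨x, hxK, ?_, by linarith⟩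
      nlinarith [mul_pos hk him]
    have hθc : ContinuousAt θ ζ :=
      (hθ.differentiableAt ((isOpen_saw k h K).mem_nhds hζs)).continuousAt
    have hle : ‖θ ζ - θ z₀‖ ≤ r := by
      by_contra hcon
      push Not at hcon
      have h6 : ∀ᶠ z in 𝓝 ζ, r < ‖θ z - θ z₀‖ :=
        (hθc.sub continuousAt_const).norm.eventually (lt_mem_nhds hcon)
      have h7 : ∃ᶠ z in 𝓝 ζ, z ∈ N := mem_closure_iff_frequently.mp hζ.1
      obtain ⟨z, hz1, hz2⟩ := (h7.and_eventually h6).exists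
      exact absurd hz1.2 (not_lt.mpr hz2.le)
    have hre : (Γ ζ).re ≤ M := by
      by_cases hζ' : ζ ∈ saw (k / 2) (h / 2) K
      · refine hb1 ζ hζs (le_antisymm hle ?_) hζ'
        by_contra hcon
        push Not at hcon
        exact hζ.2 ⟨hζ', hcon⟩
      · refine hb2 ζ hζs hle ?_
        have hfar : (cau K ζ).im ≤ Real.pi - 2 * Real.arctan (k / 2) := by
          rcases le_or_gt (h / 2) ζ.im with h6 | h6
          · refine (cau_le_of_high hKf him).trans (le_trans ?_ hsmall)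
            gcongr
          · refine cau_le_of_far hKf him hk2 fun t ht => ?_
            by_contra hcon
            push Not at hcon
            exact hζ' (mem_saw.mpr ⟨t, ht, hcon, h6⟩)
        linarith
    have hGle : ‖Complex.exp (Γ ζ)‖ ≤ Real.exp M := by
      rw [Complex.norm_exp]
      exact Real.exp_le_exp.mpr hre
    have h8 : ∀ᶠ z in 𝓝 ζ, ‖Complex.exp (Γ z)‖ < Real.exp M + δ :=
      ((hΓ ζ hζs hle).cexp.continuousAt.norm).eventually (gt_mem_nhds (by linarith))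
    exact mem_nhdsWithin_of_mem_nhds (h8.mono fun z hz => hz.le)

/-- the data on a sawtooth; `ℓ` is a logarithm of `p` -/
structure Dat (k h : ℝ) (K : Set ℝ) (θ ℓ : ℂ → ℂ) (Off Crit : Set ℂ) (a C κ ρ R : ℝ) : Prop where
  hk : 0 < k
  hh : 0 < h
  hK : IsCompact K
  ha0 : 0 < a
  ha1 : a < 1
  hC : 0 ≤ C
  hκ : 0 < κ
  hρ : 0 < ρ
  hρ1 : ρ ≤ 1
  hθ : DifferentiableOn ℂ θ (saw k h K)
  hℓ : DifferentiableOn ℂ ℓ (saw k h K)
  pos : ∀ z ∈ saw k h K, 0 < (θ z).im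
  one : ∀ z ∈ saw k h K, 1 ≤ -Real.log (θ z).im
  le1 : ∀ z ∈ saw k h K, (θ z).im ≤ 1
  num : ∀ z ∈ saw k h K, ∀ X : ℝ, (1 + a) / 2 * (-Real.log (θ z).im) ^ a ≤ X →
    5 * (1 + X / (-Real.log (θ z).im)) ≤ X - a * (-Real.log (θ z).im) ^ a
  bd : ∀ z ∈ saw k h K, ‖θ z‖ ≤ R
  h1 : ∀ z ∈ saw k h K, θ z ∈ Off → (ℓ z).re ≤ (1 - a) / 2 * (-Real.log (θ z).im) ^ a
  h2 : ∀ z ∈ saw k h K, θ z ∈ Off → θ z ∈ Crit → (ℓ z).re ≤ -κ * (-Real.log (θ z).im)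
  h3 : ∀ z ∈ saw k h K, (ℓ z).re ≤ C * (-Real.log (θ z).im)
  h4 : ∀ η > 0, ∃ r₁ > 0, ∀ z ∈ saw k h K, η ≤ (θ z).im →
    ∃ r, r₁ ≤ r ∧ r ≤ ρ / 4 * (θ z).im ∧ sphere (θ z) r ⊆ Off
  hunif : ∀ ε > 0, ∃ δ > 0, ∀ x ∈ K, ∀ z ∈ cone k δ x, z ∈ saw k h K → (θ z).im ≤ ε
  hsmall : (volume K).toReal / (h / 2) ≤ Real.pi - 2 * Real.arctan (k / 2)

/-- `s = log (1/v)` -/
noncomputable def S (θ : ℂ → ℂ) (z : ℂ) : ℝ := -Real.log (θ z).im

/-- `X = s ^ a - U` -/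
noncomputable def X (a : ℝ) (θ ℓ : ℂ → ℂ) (z : ℂ) : ℝ := (S θ z) ^ a - (ℓ z).re

/-- `F = X / (s + X)` -/
noncomputable def F (a : ℝ) (θ ℓ : ℂ → ℂ) (z : ℂ) : ℝ := X a θ ℓ z / (S θ z + X a θ ℓ z)

variable {k h : ℝ} {K : Set ℝ} {θ ℓ : ℂ → ℂ} {Off Crit : Set ℂ} {a C κ ρ R : ℝ}

theorem Dat.S_one (D : Dat k h K θ ℓ Off Crit a C κ ρ R) {z : ℂ} (hz : z ∈ saw k h K) :
    1 ≤ S θ z := D.one z hz

theorem Dat.X_ge (D : Dat k h K θ ℓ Off Crit a C κ ρ R) {z : ℂ} (hz : z ∈ saw k h K)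
    (ho : θ z ∈ Off) : (1 + a) / 2 * (S θ z) ^ a ≤ X a θ ℓ z := by
  have h := D.h1 z hz ho
  unfold X S
  nlinarith

theorem Dat.X_pos (D : Dat k h K θ ℓ Off Crit a C κ ρ R) {z : ℂ} (hz : z ∈ saw k h K)
    (ho : θ z ∈ Off) : 0 < X a θ ℓ z := by
  have h := D.X_ge hz ho
  have h1 : 0 < (S θ z) ^ a := Real.rpow_pos_of_pos (by linarith [D.S_one hz]) a
  have := D.ha0
  have h2 : 0 < (1 + a) / 2 * (S θ z) ^ a := by positivity
  linarith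

theorem Dat.F_nonneg (D : Dat k h K θ ℓ Off Crit a C κ ρ R) {z : ℂ} (hz : z ∈ saw k h K)
    (ho : θ z ∈ Off) : 0 ≤ F a θ ℓ z := by
  have h1 := D.X_pos hz ho
  have h2 := D.S_one hz
  unfold F
  positivity

theorem Dat.F_crit (D : Dat k h K θ ℓ Off Crit a C κ ρ R) {z : ℂ} (hz : z ∈ saw k h K)
    (ho : θ z ∈ Off) (hc : θ z ∈ Crit) : κ / (1 + κ) ≤ F a θ ℓ z := by
  have h1 := D.X_pos hz ho
  have h2 := D.S_one hz
  have hκ := D.hκ
  have h3 : κ * S θ z ≤ X a θ ℓ z := by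
    have h4 := D.h2 z hz ho hc
    have h5 : 0 < (S θ z) ^ a := Real.rpow_pos_of_pos (by linarith) a
    unfold X S at *
    linarith
  unfold F
  rw [div_le_div_iff₀ (by positivity) (by positivity)]
  nlinarith

theorem rpow_bern {a : ℝ} (ha0 : 0 ≤ a) (ha1 : a ≤ 1) {s₀ s : ℝ} (hs₀ : 0 < s₀) (hs : 0 < s) :
    s ^ a ≤ s₀ ^ a * (1 + a * (s - s₀) / s₀) := by
  have h1 : s = s₀ * (1 + (s - s₀) / s₀) := by field_simp; ring
  have h2 : 0 ≤ 1 + (s - s₀) / s₀ := by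
    have : 1 + (s - s₀) / s₀ = s / s₀ := by field_simp; ring
    rw [this]; positivity
  have h3 : s ^ a = s₀ ^ a * (1 + (s - s₀) / s₀) ^ a := by
    conv_lhs => rw [h1]
    rw [Real.mul_rpow hs₀.le h2]
  rw [h3]
  refine mul_le_mul_of_nonneg_left ?_ (Real.rpow_nonneg hs₀.le a)
  have h4 := _root_.rpow_one_add_le_one_add_mul_self (s := (s - s₀) / s₀) (by linarith) ha0 ha1
  rw [mul_div_assoc]
  exact h4

/-- the parameter `t = v / v₀ - 1` -/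
theorem t_bound {v v₀ r : ℝ} (hv₀ : 0 < v₀) (h : |v - v₀| ≤ r) (hr : r ≤ v₀ / 4) :
    |(v - v₀) / v₀| ≤ 1 / 4 := by
  rw [abs_div, abs_of_pos hv₀, div_le_iff₀ hv₀]
  linarith

theorem S_eq {θ : ℂ → ℂ} {z z₀ : ℂ} (hv₀ : 0 < (θ z₀).im) (hv : 0 < (θ z).im) :
    S θ z = S θ z₀ - Real.log (1 + ((θ z).im - (θ z₀).im) / (θ z₀).im) := by
  have h1 : 1 + ((θ z).im - (θ z₀).im) / (θ z₀).im = (θ z).im / (θ z₀).im := by
    field_simp; ring
  rw [h1, Real.log_div hv.ne' hv₀.ne']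
  unfold S
  ring

/-- The key inequality on the sphere. -/
theorem Dat.key (D : Dat k h K θ ℓ Off Crit a C κ ρ R) {z₀ z : ℂ} (hz₀ : z₀ ∈ saw k h K)
    (ho₀ : θ z₀ ∈ Off) (hz : z ∈ saw k h K) (ho : θ z ∈ Off) {r : ℝ}
    (hr : r ≤ (θ z₀).im / 4) (hd : ‖θ z - θ z₀‖ ≤ r) :
    F a θ ℓ z ≤ F a θ ℓ z₀ + S θ z₀ / (S θ z₀ + X a θ ℓ z₀) ^ 2 *
      (-((ℓ z).re - (ℓ z₀).re) + (X a θ ℓ z₀ / S θ z₀ - a * (S θ z₀) ^ a / S θ z₀) *
        (((θ z).im - (θ z₀).im) / (θ z₀).im)) := by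
  have hv₀ := D.pos z₀ hz₀
  have hv := D.pos z hz
  have h4 : |(θ z).im - (θ z₀).im| ≤ r := by
    have := Complex.abs_im_le_norm (θ z - θ z₀)
    rw [Complex.sub_im] at this
    exact this.trans hd
  have hs₀ := D.S_one hz₀
  have hs := D.S_one hz
  have hX₀ := D.X_pos hz₀ ho₀
  have hX := D.X_pos hz ho
  have hp : 0 < (S θ z₀) ^ a := Real.rpow_pos_of_pos (by linarith) a
  have hnum := D.num z₀ hz₀ (X a θ ℓ z₀) (D.X_ge hz₀ ho₀)
  have := OV.key (a := a) (s₀ := S θ z₀) (s := S θ z) (β₀ := (S θ z₀) ^ a) (β := (S θ z) ^ a)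
    (U₀ := (ℓ z₀).re) (U := (ℓ z).re) (t := ((θ z).im - (θ z₀).im) / (θ z₀).im)
    (by linarith) (t_bound hv₀ h4 hr) (S_eq hv₀ hv) (by linarith)
    (rpow_bern D.ha0.le D.ha1.le (by linarith) (by linarith)) hX₀.le hX.le
    (mul_nonneg D.ha0.le hp.le) hnum
  exact this

end Vale.Agent.P097.H719.OV
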