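import Vale.Agent.P097.H719.OV3

/-! # One vertex: comparison with the sum of Green functions -/

open Complex Metric Filter Topology Set MeasureTheory

namespace Vale.Agent.P097.H719.OV

open Vale.Agent.P097.H877.Bd

variable {k h : ℝ} {K : Set ℝ} {θ ℓ : ℂ → ℂ} {Off Crit : Set ℂ} {a C κ ρ R : ℝ}

/-- `π - Im cau K` as a real part -/
theorem om_re (K : Set ℝ) (z : ℂ) : ((Real.pi : ℂ) + I * cau K z).re = Real.pi - (cau K z).im := by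
  simp [Complex.add_re, Complex.mul_re, sub_eq_add_neg]

theorem cau_le_pi {K : Set ℝ} (hK : volume K ≠ ⊤) {z : ℂ} (hz : 0 < z.im) :
    (cau K z).im ≤ Real.pi := by
  rw [cau_im hK hz]; exact setIntegral_pk_le hz

theorem cau_nonneg {K : Set ℝ} (hK : volume K ≠ ⊤) {z : ℂ} (hz : 0 < z.im) :
    0 ≤ (cau K z).im := by
  rw [cau_im hK hz]
  exact setIntegral_nonneg_of_ae (Eventually.of_forall fun t => (pk_pos hz t).le)

/-- geometry of a far pole -/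
theorem far_pole {ρ : ℝ} (hρ : 0 < ρ) (hρ1 : ρ ≤ 1) {c x₀ x : ℂ} (hc : 0 < c.im)
    (hx₀ : 0 < x₀.im) {r : ℝ} (hr : r ≤ ρ / 4 * x₀.im) (hfar : ρ * c.im ≤ ‖x₀ - c‖)
    (hx : ‖x - x₀‖ ≤ r) : ‖x - x₀‖ < ‖x₀ - c‖ ∧ ρ / 2 * c.im ≤ ‖x - c‖ := by
  have h1 : |(x₀ - c).im| ≤ ‖x₀ - c‖ := Complex.abs_im_le_norm _
  rw [Complex.sub_im] at h1
  have h2 : x₀.im - c.im ≤ ‖x₀ - c‖ := (le_abs_self _).trans h1
  have h3 : ‖x₀ - c‖ ≤ ‖x - x₀‖ + ‖x - c‖ := by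
    have : x₀ - c = -(x - x₀) + (x - c) := by ring
    rw [this]
    exact (norm_add_le _ _).trans (by rw [norm_neg])
  rcases le_or_gt x₀.im (2 * c.im) with h4 | h4
  · have h5 : r ≤ ρ / 2 * c.im := by
      refine hr.trans ?_
      calc ρ / 4 * x₀.im ≤ ρ / 4 * (2 * c.im) := mul_le_mul_of_nonneg_left h4 (by positivity)
        _ = ρ / 2 * c.im := by ring
    have h6 : 0 < ρ * c.im := by positivity
    constructor
    · linarith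
    · linarith
  · have h5 : r ≤ x₀.im / 4 := by
      refine hr.trans ?_
      nlinarith
    have h6 : ρ / 2 * c.im ≤ c.im / 2 := by nlinarith
    constructor
    · linarith
    · linarith

theorem est_far {C s₀ X₀ U U₀ c₀ t q : ℝ} (hC : 0 ≤ C) (hs₀1 : 1 ≤ s₀) (hX₀0 : 0 < X₀)
    (hq : q = s₀ / (s₀ + X₀) ^ 2) (hU : U ≤ 2 * C * s₀) (hU₀ : -U₀ ≤ X₀) (hc : c₀ ≤ X₀)
    (hc' : 0 ≤ c₀) (ht : |t| ≤ 1 / 4) : -(q * (-(U - U₀) + c₀ * t)) ≤ 2 * C + 2 := by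
  have hq0 : 0 ≤ q := by rw [hq]; positivity
  have hqs : q * s₀ ≤ 1 := by
    rw [hq, div_mul_eq_mul_div, div_le_one (by positivity)]
    nlinarith
  have hqX : q * X₀ ≤ 1 := by
    rw [hq, div_mul_eq_mul_div, div_le_one (by positivity)]
    nlinarith
  have hct : -(c₀ * t) ≤ X₀ := by
    have h6 : -(c₀ * t) ≤ c₀ * |t| := by
      rw [← mul_neg]
      exact mul_le_mul_of_nonneg_left (neg_le_abs t) hc'
    have h7 : c₀ * |t| ≤ X₀ * 1 := mul_le_mul hc (by linarith) (abs_nonneg _) hX₀0.le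
    linarith
  have h6 : -(q * (-(U - U₀) + c₀ * t)) = q * (U + (-U₀) + (-(c₀ * t))) := by ring
  rw [h6]
  have h7 : q * (U + (-U₀) + (-(c₀ * t))) ≤ q * (2 * C * s₀ + X₀ + X₀) :=
    mul_le_mul_of_nonneg_left (by linarith) hq0
  have h8 : q * (2 * C * s₀ + X₀ + X₀) = 2 * C * (q * s₀) + 2 * (q * X₀) := by ring
  have h9 : 2 * C * (q * s₀) ≤ 2 * C * 1 := mul_le_mul_of_nonneg_left hqs (by positivity)
  linarith

theorem eps_far {ε R r : ℝ} (hε : 0 ≤ ε) (hR : 0 ≤ R) (hεR : ε * (R + 1) ^ 2 ≤ 1) (hr0 : 0 ≤ r)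
    (hr : r ≤ 1) {x₀ y : ℂ} (hx₀ : ‖x₀‖ ≤ R) (hy : ‖y‖ ≤ r) :
    ε * (‖x₀‖ ^ 2 + r ^ 2 + 2 * ((starRingEnd ℂ) x₀ * y).re) ≤ 1 := by
  refine le_trans (mul_le_mul_of_nonneg_left ?_ hε) hεR
  have h8 : ((starRingEnd ℂ) x₀ * y).re ≤ R * 1 := by
    refine (Complex.re_le_norm _).trans ?_
    rw [norm_mul, Complex.norm_conj]
    exact mul_le_mul hx₀ (hy.trans hr) (norm_nonneg _) hR
  have h9 : ‖x₀‖ ^ 2 ≤ R ^ 2 := pow_le_pow_left₀ (norm_nonneg _) hx₀ 2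
  have h10 : r ^ 2 ≤ 1 := pow_le_one₀ hr0 hr
  have h11 : (R + 1) ^ 2 = R ^ 2 + 1 + 2 * (R * 1) := by ring
  rw [h11]
  linarith

theorem Dat.c0_bd (D : Dat k h K θ ℓ Off Crit a C κ ρ R) {z₀ : ℂ} (hz₀ : z₀ ∈ saw k h K)
    (ho₀ : θ z₀ ∈ Off) : X a θ ℓ z₀ / S θ z₀ - a * (S θ z₀) ^ a / S θ z₀ ≤ X a θ ℓ z₀ ∧
      0 ≤ X a θ ℓ z₀ / S θ z₀ - a * (S θ z₀) ^ a / S θ z₀ := by
  obtain ⟨s₀, hs₀⟩ : ∃ s, s = S θ z₀ := ⟨_, rfl⟩
  obtain ⟨X₀, hX₀⟩ : ∃ X', X' = X a θ ℓ z₀ := ⟨_, rfl⟩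
  have hs₀1 : 1 ≤ s₀ := by rw [hs₀]; exact D.S_one hz₀
  have hX₀0 : 0 < X₀ := by rw [hX₀]; exact D.X_pos hz₀ ho₀
  have h6 : 0 < s₀ ^ a := Real.rpow_pos_of_pos (by linarith) a
  have h7 := D.num z₀ hz₀ X₀ (by rw [hX₀]; exact D.X_ge hz₀ ho₀)
  have h8 : -Real.log (θ z₀).im = s₀ := by rw [hs₀]; rfl
  rw [h8] at h7
  rw [← hs₀, ← hX₀]
  have h9 : 0 < X₀ / s₀ := by positivity
  have ha := D.ha0
  constructor
  · have h10 : X₀ / s₀ ≤ X₀ := div_le_self hX₀0.le hs₀1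
    have h11 : 0 ≤ a * s₀ ^ a / s₀ := by positivity
    linarith
  · rw [← sub_div]
    apply div_nonneg _ (by linarith)
    linarith

theorem Dat.S_le (D : Dat k h K θ ℓ Off Crit a C κ ρ R) {z₀ ζ : ℂ} (hz₀ : z₀ ∈ saw k h K)
    (hζ : ζ ∈ saw k h K) (ht : |((θ ζ).im - (θ z₀).im) / (θ z₀).im| ≤ 1 / 4) :
    |S θ ζ - S θ z₀| ≤ 1 / 2 := by
  have h6 := S_eq (θ := θ) (z := ζ) (z₀ := z₀) (D.pos z₀ hz₀) (D.pos ζ hζ)
  rw [h6]
  have h7 := abs_log_le ht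
  have h8 : S θ z₀ - Real.log (1 + ((θ ζ).im - (θ z₀).im) / (θ z₀).im) - S θ z₀ =
      -Real.log (1 + ((θ ζ).im - (θ z₀).im) / (θ z₀).im) := by ring
  rw [h8, abs_neg]
  linarith

theorem Dat.t_bd (D : Dat k h K θ ℓ Off Crit a C κ ρ R) {z₀ ζ : ℂ} (hz₀ : z₀ ∈ saw k h K)
    {r : ℝ} (hr : r ≤ (θ z₀).im / 4) (hd : ‖θ ζ - θ z₀‖ ≤ r) :
    |((θ ζ).im - (θ z₀).im) / (θ z₀).im| ≤ 1 / 4 := by
  have h4 : |(θ ζ).im - (θ z₀).im| ≤ r := by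
    have := Complex.abs_im_le_norm (θ ζ - θ z₀)
    rw [Complex.sub_im] at this
    exact this.trans hd
  exact t_bound (D.pos z₀ hz₀) h4 hr

theorem core1 (D : Dat k h K θ ℓ Off Crit a C κ ρ R) {J : Finset ℂ}
    (hJ : ∀ c ∈ J, 0 < c.im) (hdis : (J : Set ℂ).PairwiseDisjoint sh)
    (hcrit : ∀ c ∈ J, ball c (ρ * c.im) ⊆ Crit) {lam C₅ : ℝ} (hlam : 0 ≤ lam)
    (hlam' : lam * (50 / ρ ^ 2 * Real.pi) ≤ κ / (1 + κ)) (hC₅ : 0 ≤ C₅)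
    (hC₅' : 2 * C + 4 ≤ C₅ * (2 * Real.arctan (k / 2)))
    {z₁ : ℂ} (hz₁ : z₁ ∈ saw (k / 2) (h / 2) K) (ho₁ : θ z₁ ∈ Off)
    (hf₁ : ∀ c ∈ J, ρ * c.im ≤ ‖θ z₁ - c‖) :
    lam * ∑ c ∈ J, gr c (θ z₁) ≤ F a θ ℓ z₁ + C₅ * (Real.pi - (cau K z₁).im) := by
  have hk := D.hk
  have hh := D.hh
  have hρ := D.hρ
  have hρ1 := D.hρ1
  have hκ := D.hκ
  have hC := D.hC
  have hKf : volume K ≠ ⊤ := D.hK.measure_lt_top.ne
  have hk2 : 0 < k / 2 := by positivity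
  have hsub : saw (k / 2) (h / 2) K ⊆ saw k h K :=
    saw_mono hk2 (by linarith) (by linarith) subset_rfl
  have hκ1 : κ / (1 + κ) ≤ 1 := by rw [div_le_one (by positivity)]; linarith
  by_contra hcon
  push Not at hcon
  obtain ⟨hh', hhdef⟩ : ∃ f : ℂ → ℝ, f = fun x => lam * ∑ c ∈ J, gr c x := ⟨_, rfl⟩
  obtain ⟨om, homdef⟩ : ∃ f : ℂ → ℝ, f = fun z => C₅ * (Real.pi - (cau K z).im) := ⟨_, rfl⟩
  -- basic bounds
  have hom0 : ∀ z ∈ saw k h K, 0 ≤ om z := fun z hz => by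
    rw [homdef]
    exact mul_nonneg hC₅ (by linarith [cau_le_pi hKf (saw_im_pos hk hz)])
  have hhb : ∀ x : ℂ, 0 < x.im → (∀ c ∈ J, ρ / 2 * c.im ≤ ‖x - c‖) →
      hh' x ≤ κ / (1 + κ) := fun x hx hf => by
    rw [hhdef]
    exact (mul_le_mul_of_nonneg_left (sum_gr_le hJ hdis hρ hρ1 hx hf) hlam).trans hlam'
  obtain ⟨AJ, hAJ⟩ : ∃ AJ, AJ = ∑ c ∈ J, 2 / (ρ ^ 2 * c.im) := ⟨_, rfl⟩
  have hAJ0 : 0 ≤ AJ := by
    rw [hAJ]
    exact Finset.sum_nonneg fun c hc => by have := hJ c hc; positivity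
  have hhim : ∀ x : ℂ, 0 < x.im → (∀ c ∈ J, ρ * c.im ≤ ‖x - c‖) → hh' x ≤ lam * AJ * x.im :=
    fun x hx hf => by
    rw [hhdef]
    have := mul_le_mul_of_nonneg_left (sum_gr_le_im hJ hρ hx hf) hlam
    rw [← hAJ] at this
    linarith
  -- the gap
  obtain ⟨gap, hgap⟩ : ∃ g, g = hh' (θ z₁) - F a θ ℓ z₁ - om z₁ := ⟨_, rfl⟩
  have hgap0 : 0 < gap := by rw [hgap, hhdef, homdef]; simp only; linarith
  have hR0 : 0 ≤ R := (norm_nonneg _).trans (D.bd z₁ (hsub hz₁))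
  obtain ⟨ε, hε⟩ : ∃ e, e = min (gap / (2 * (R ^ 2 + 1))) (1 / (R + 1) ^ 2) := ⟨_, rfl⟩
  have hε0 : 0 < ε := by rw [hε]; exact lt_min (by positivity) (by positivity)
  have hεR : ε * R ^ 2 ≤ gap / 2 := by
    have h1 : ε ≤ gap / (2 * (R ^ 2 + 1)) := by rw [hε]; exact min_le_left _ _
    rw [le_div_iff₀ (by positivity)] at h1
    nlinarith
  have hεR1 : ε * (R + 1) ^ 2 ≤ 1 := by
    have h1 : ε ≤ 1 / (R + 1) ^ 2 := by rw [hε]; exact min_le_right _ _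
    rwa [le_div_iff₀ (by positivity)] at h1
  obtain ⟨G, hG⟩ : ∃ G : ℂ → ℝ, G = fun z => hh' (θ z) - F a θ ℓ z - om z + ε * ‖θ z‖ ^ 2 :=
    ⟨_, rfl⟩
  set O : Set ℂ := {z | z ∈ saw (k / 2) (h / 2) K ∧ θ z ∈ Off ∧
    ∀ c ∈ J, ρ * c.im ≤ ‖θ z - c‖} with hO
  have hz₁O : z₁ ∈ O := ⟨hz₁, ho₁, hf₁⟩
  have hnsq : ∀ z ∈ saw k h K, ε * ‖θ z‖ ^ 2 ≤ gap / 2 := fun z hz => by
    have h1 : ‖θ z‖ ^ 2 ≤ R ^ 2 := pow_le_pow_left₀ (norm_nonneg _) (D.bd z hz) 2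
    exact (mul_le_mul_of_nonneg_left h1 hε0.le).trans hεR
  have hGb : ∀ z ∈ O, G z ≤ 1 + gap / 2 := fun z hz => by
    have hzs := hsub hz.1
    rw [hG]
    simp only
    have h1 := hhb (θ z) (D.pos z hzs) (fun c hc => by
      have := hz.2.2 c hc
      have := hJ c hc
      nlinarith)
    have h2 := D.F_nonneg hzs hz.2.1
    have h3 := hom0 z hzs
    have h4 := hnsq z hzs
    linarith
  have hbdd : BddAbove (G '' O) := ⟨1 + gap / 2, by rintro _ ⟨z, hz, rfl⟩; exact hGb z hz⟩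
  have hne : (G '' O).Nonempty := ⟨_, z₁, hz₁O, rfl⟩
  obtain ⟨m, hm⟩ : ∃ m, m = sSup (G '' O) := ⟨_, rfl⟩
  have hGm : ∀ z ∈ O, G z ≤ m := fun z hz => by rw [hm]; exact le_csSup hbdd ⟨z, hz, rfl⟩
  have hmgap : gap ≤ m := by
    refine le_trans ?_ (hGm z₁ hz₁O)
    rw [hG, hgap]
    simp only
    have : 0 ≤ ε * ‖θ z₁‖ ^ 2 := by positivity
    linarith
  -- the lower bound for the height near the supremum
  obtain ⟨η, hη⟩ : ∃ η, η = gap / (4 * (lam * AJ + 1)) := ⟨_, rfl⟩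
  have hη0 : 0 < η := by rw [hη]; positivity
  obtain ⟨r₁, hr₁0, hr₁⟩ := D.h4 η hη0
  obtain ⟨e, he⟩ : ∃ e, e = min (gap / 4) (ε * r₁ ^ 2 / 2) := ⟨_, rfl⟩
  have he0 : 0 < e := by rw [he]; exact lt_min (by positivity) (by positivity)
  obtain ⟨_, ⟨z₀, hz₀O, rfl⟩, hz₀m⟩ := exists_lt_of_lt_csSup hne
    (show m - e < sSup (G '' O) by rw [← hm]; linarith)
  have hz₀ := hz₀O.1
  have hz₀s := hsub hz₀
  have ho₀ := hz₀O.2.1
  have hv₀ := D.pos z₀ hz₀s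
  have hv₀η : η ≤ (θ z₀).im := by
    have h1 := hhim (θ z₀) hv₀ hz₀O.2.2
    have h2 := D.F_nonneg hz₀s ho₀
    have h3 := hom0 z₀ hz₀s
    have h4 := hnsq z₀ hz₀s
    have h5 : e ≤ gap / 4 := by rw [he]; exact min_le_left _ _
    rw [hG] at hz₀m
    simp only at hz₀m
    have h6 : gap / 4 ≤ lam * AJ * (θ z₀).im := by linarith
    rw [hη, div_le_iff₀ (by positivity)]
    nlinarith
  obtain ⟨r, hr₁r, hr, hsph⟩ := hr₁ z₀ hz₀s hv₀η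
  have hr0 : 0 < r := by linarith
  have hr4 : r ≤ (θ z₀).im / 4 := by nlinarith
  -- abbreviations
  obtain ⟨x₀, hx₀⟩ : ∃ x, x = θ z₀ := ⟨_, rfl⟩
  obtain ⟨s₀, hs₀⟩ : ∃ s, s = S θ z₀ := ⟨_, rfl⟩
  obtain ⟨X₀, hX₀⟩ : ∃ X', X' = X a θ ℓ z₀ := ⟨_, rfl⟩
  obtain ⟨q, hq⟩ : ∃ q, q = s₀ / (s₀ + X₀) ^ 2 := ⟨_, rfl⟩
  obtain ⟨c₀, hc₀⟩ : ∃ c, c = X₀ / s₀ - a * s₀ ^ a / s₀ := ⟨_, rfl⟩
  have hs₀1 : 1 ≤ s₀ := by rw [hs₀]; exact D.S_one hz₀s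
  have hX₀0 : 0 < X₀ := by rw [hX₀]; exact D.X_pos hz₀s ho₀
  have hq0 : 0 ≤ q := by rw [hq]; positivity
  set Γ : ℂ → ℂ := fun ζ => (lam : ℂ) * (∑ c ∈ J, grH x₀ c (θ ζ)) -
    ((F a θ ℓ z₀ : ℝ) + (q : ℂ) * (-(ℓ ζ - ((ℓ z₀).re : ℝ)) +
      (c₀ : ℂ) * ((-I) * (θ ζ - x₀) / (x₀.im : ℂ)))) -
    (C₅ : ℂ) * ((Real.pi : ℂ) + I * cau K ζ) +
    (ε : ℂ) * (((‖x₀‖ ^ 2 + r ^ 2 : ℝ) : ℂ) + 2 * ((starRingEnd ℂ) x₀ * (θ ζ - x₀))) with hΓ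
  have hpole : ∀ ζ, ‖θ ζ - θ z₀‖ ≤ r → ∀ c ∈ J, ‖θ ζ - x₀‖ < ‖x₀ - c‖ ∧
      ρ / 2 * c.im ≤ ‖θ ζ - c‖ := fun ζ hζ c hc => by
    rw [hx₀]
    exact far_pole hρ hρ1 (hJ c hc) hv₀ hr (hz₀O.2.2 c hc) hζ
  have hΓre : ∀ ζ, ‖θ ζ - θ z₀‖ ≤ r → (Γ ζ).re = hh' (θ ζ) -
      (F a θ ℓ z₀ + q * (-((ℓ ζ).re - (ℓ z₀).re) + c₀ *
        (((θ ζ).im - (θ z₀).im) / (θ z₀).im))) - om ζ +
      ε * (‖x₀‖ ^ 2 + r ^ 2 + 2 * ((starRingEnd ℂ) x₀ * (θ ζ - x₀)).re) := by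
    intro ζ hζ
    have e1 : (∑ c ∈ J, grH x₀ c (θ ζ)).re = ∑ c ∈ J, gr c (θ ζ) := by
      rw [Complex.re_sum]
      refine Finset.sum_congr rfl fun c hc => ?_
      exact grH_re (by rw [hx₀]; exact hv₀) (hJ c hc) (hpole ζ hζ c hc).1
    have e2 : ((-I) * (θ ζ - x₀) / (x₀.im : ℂ)).re =
        ((θ ζ).im - (θ z₀).im) / (θ z₀).im := by
      rw [Complex.div_ofReal_re]
      simp [hx₀]
    have e3 := om_re K ζ
    rw [hΓ, hhdef, homdef]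
    simp only [Complex.add_re, Complex.sub_re, Complex.re_ofReal_mul, Complex.neg_re,
      Complex.ofReal_re, e1, e2] at e3 ⊢
    rw [e3]
    have e4 : (2 * ((starRingEnd ℂ) x₀ * (θ ζ - x₀))).re =
        2 * ((starRingEnd ℂ) x₀ * (θ ζ - x₀)).re := by
      have : (2 : ℂ) = ((2 : ℝ) : ℂ) := by norm_num
      rw [this, Complex.re_ofReal_mul]
    rw [e4]
  have hexpand : ∀ ζ, ‖θ ζ‖ ^ 2 = ‖x₀‖ ^ 2 + ‖θ ζ - x₀‖ ^ 2 +
      2 * ((starRingEnd ℂ) x₀ * (θ ζ - x₀)).re := by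
    intro ζ
    rw [← Complex.normSq_eq_norm_sq, ← Complex.normSq_eq_norm_sq, ← Complex.normSq_eq_norm_sq]
    simp only [Complex.normSq_apply, Complex.mul_re, Complex.conj_re, Complex.conj_im,
      Complex.sub_re, Complex.sub_im]
    ring
  have hmain : (Γ z₀).re ≤ m := by
    refine maxN hk hh D.hK D.hθ D.pos D.hunif D.hsmall hz₀ hr0 hr4 ?_ ?_ ?_
    · -- differentiability
      intro ζ hζ hd
      have d1 : DifferentiableAt ℂ θ ζ :=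
        D.hθ.differentiableAt ((isOpen_saw k h K).mem_nhds hζ)
      have d2 : DifferentiableAt ℂ ℓ ζ :=
        D.hℓ.differentiableAt ((isOpen_saw k h K).mem_nhds hζ)
      have d3 : DifferentiableAt ℂ (cau K) ζ := differentiableAt_cau hKf (saw_im_pos hk hζ)
      have d4 : DifferentiableAt ℂ (fun ζ => ∑ c ∈ J, grH x₀ c (θ ζ)) ζ := by
        refine DifferentiableAt.fun_sum fun c hc => ?_
        exact (differentiableAt_grH (by rw [hx₀]; exact hv₀) (hJ c hc)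
          (hpole ζ hd c hc).1).comp ζ d1
      rw [hΓ]
      exact ((((d4.const_mul _).sub ((((d2.sub_const _).neg.add
        (((d1.sub_const _).const_mul _).div_const _ |>.const_mul _)).const_mul _).const_add _)).sub
        (((d3.const_mul _).const_add _).const_mul _)).add
        (((((d1.sub_const _).const_mul _).const_mul _).const_add _).const_mul _))
    · -- on the good circle
      intro ζ hζ hd hζ'
      have hoζ : θ ζ ∈ Off := hsph (by rw [mem_sphere, dist_eq_norm]; exact hd)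
      rw [hΓre ζ hd.le]
      have hkey := D.key hz₀s ho₀ hζ hoζ hr4 hd.le
      rw [← hs₀, ← hX₀, ← hq, ← hc₀] at hkey
      have hGζ : hh' (θ ζ) - (F a θ ℓ z₀ + q * (-((ℓ ζ).re - (ℓ z₀).re) + c₀ *
          (((θ ζ).im - (θ z₀).im) / (θ z₀).im))) - om ζ +
          ε * (‖x₀‖ ^ 2 + r ^ 2 + 2 * ((starRingEnd ℂ) x₀ * (θ ζ - x₀)).re) ≤ G ζ := by
        rw [hG]
        simp only
        rw [hexpand ζ]
        have : ‖θ ζ - x₀‖ = r := by rw [hx₀]; exact hd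
        rw [this]
        linarith
      refine hGζ.trans ?_
      by_cases hfar : ∀ c ∈ J, ρ * c.im ≤ ‖θ ζ - c‖
      · exact hGm ζ ⟨hζ', hoζ, hfar⟩
      · push Not at hfar
        obtain ⟨c, hc, hcd⟩ := hfar
        have hcr : θ ζ ∈ Crit := hcrit c hc (by rw [mem_ball, dist_eq_norm]; exact hcd)
        have h1 := D.F_crit hζ hoζ hcr
        have h2 := hhb (θ ζ) (D.pos ζ hζ) (fun c hc => (hpole ζ hd.le c hc).2)
        have h3 := hom0 ζ hζ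
        have h4 := hnsq ζ hζ
        rw [hG]
        simp only
        linarith
    · -- on the boundary of the sawtooth
      intro ζ hζ hd hfar
      rw [hΓre ζ hd]
      have h2 := hhb (θ ζ) (D.pos ζ hζ) (fun c hc => (hpole ζ hd c hc).2)
      have h3 : 2 * C + 4 ≤ om ζ := by
        rw [homdef]
        exact hC₅'.trans (mul_le_mul_of_nonneg_left hfar hC₅)
      have h5 := D.F_nonneg hz₀s ho₀
      have ht := D.t_bd (ζ := ζ) hz₀s hr4 hd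
      have hSζ := abs_le.mp (D.S_le hz₀s hζ ht)
      rw [← hs₀] at hSζ
      have hU : (ℓ ζ).re ≤ 2 * C * s₀ := by
        have h6 := D.h3 ζ hζ
        have h7 : C * (-Real.log (θ ζ).im) ≤ C * (2 * s₀) := by
          refine mul_le_mul_of_nonneg_left ?_ hC
          have : S θ ζ = -Real.log (θ ζ).im := rfl
          linarith [hSζ.2]
        linarith
      have hU₀ : -(ℓ z₀).re ≤ X₀ := by
        have h6 : 0 < (S θ z₀) ^ a := Real.rpow_pos_of_pos (by linarith) a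
        rw [hX₀]
        unfold X
        linarith
      have hcb := D.c0_bd hz₀s ho₀
      rw [← hs₀, ← hX₀, ← hc₀] at hcb
      have hqq := est_far (q := q) hC hs₀1 hX₀0 hq hU hU₀ hcb.1 hcb.2 ht
      have hlast := eps_far (r := r) hε0.le hR0 hεR1 hr0.le (by linarith [D.le1 z₀ hz₀s])
        (x₀ := x₀) (y := θ ζ - x₀) (by rw [hx₀]; exact D.bd z₀ hz₀s) (by rw [hx₀]; exact hd)
      linarith
  -- contradiction
  have hfin := hΓre z₀ (by simpa using hr0.le)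
  have h1 : (Γ z₀).re = G z₀ + ε * r ^ 2 := by
    rw [hfin, hG]
    simp only
    have h2 := hexpand z₀
    have h3 : θ z₀ - x₀ = 0 := by rw [hx₀, sub_self]
    rw [h3] at h2 ⊢
    simp only [norm_zero, mul_zero, Complex.zero_re] at h2 ⊢
    rw [h2, hx₀]
    simp
    ring
  rw [h1] at hmain
  have h2 : e ≤ ε * r₁ ^ 2 / 2 := by rw [he]; exact min_le_right _ _
  have h3 : ε * r₁ ^ 2 ≤ ε * r ^ 2 :=
    mul_le_mul_of_nonneg_left (pow_le_pow_left₀ hr₁0.le hr₁r 2) hε0.le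
  have h4 : 0 < ε * r₁ ^ 2 := by positivity
  linarith

end Vale.Agent.P097.H719.OV
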