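import Vale.Agent.P097.H719.OV4

/-! # One vertex: the critical set -/

open Complex Metric Filter Topology Set MeasureTheory

namespace Vale.Agent.P097.H719.OV

open Vale.Agent.P097.H877.Bd

variable {k h : ℝ} {K : Set ℝ} {θ ℓ : ℂ → ℂ} {Off Crit : Set ℂ} {a C κ ρ R : ℝ}

/-- boundary points with arbitrarily small critical windows over them -/
def Bcrit (ρ : ℝ) (Crit : Set ℂ) : Set ℝ :=
  {b | ∀ δ > 0, ∃ c : ℂ, 0 < c.im ∧ c.im < δ ∧ |c.re - b| < c.im ∧ ball c (ρ * c.im) ⊆ Crit}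

theorem measurableSet_Bcrit (ρ : ℝ) (Crit : Set ℂ) : MeasurableSet (Bcrit ρ Crit) := by
  have h1 : Bcrit ρ Crit = ⋂ n : ℕ, {b : ℝ | ∃ c : ℂ, 0 < c.im ∧ c.im < 1 / ((n : ℝ) + 1) ∧
      |c.re - b| < c.im ∧ ball c (ρ * c.im) ⊆ Crit} := by
    ext b
    simp only [Bcrit, mem_iInter, mem_ofPred_eq]
    constructor
    · intro hb n
      exact hb _ (by positivity)
    · intro hb δ hδ
      obtain ⟨n, hn⟩ := exists_nat_gt (1 / δ)
      obtain ⟨c, h0, h1, h2, h3⟩ := hb n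
      refine ⟨c, h0, h1.trans_le ?_, h2, h3⟩
      rw [div_lt_iff₀ hδ] at hn
      rw [div_le_iff₀ (by positivity)]
      nlinarith
  rw [h1]
  refine MeasurableSet.iInter fun n => IsOpen.measurableSet ?_
  rw [isOpen_iff_mem_nhds]
  rintro b ⟨c, h0, h1, h2, h3⟩
  have h4 : ∀ᶠ y in 𝓝 b, |c.re - y| < c.im :=
    (isOpen_lt (by fun_prop) (by fun_prop)).mem_nhds h2
  filter_upwards [h4] with y hy using ⟨c, h0, h1, hy, h3⟩

theorem exists_family {A : Set ℝ} (hA : IsCompact A) (hAB : A ⊆ Bcrit ρ Crit) {δ : ℝ}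
    (hδ : 0 < δ) : ∃ J : Finset ℂ, (∀ c ∈ J, 0 < c.im ∧ c.im < δ ∧ ball c (ρ * c.im) ⊆ Crit) ∧
      (J : Set ℂ).PairwiseDisjoint sh ∧ A ⊆ ⋃ c ∈ J, closedBall c.re (5 * c.im) := by
  classical
  have h1 : ∀ b : ℝ, ∃ c : ℂ, b ∈ A → 0 < c.im ∧ c.im < δ ∧ |c.re - b| < c.im ∧
      ball c (ρ * c.im) ⊆ Crit := by
    intro b
    by_cases hb : b ∈ A
    · obtain ⟨c, hc⟩ := hAB hb δ hδ
      exact ⟨c, fun _ => hc⟩
    · exact ⟨0, fun h => absurd h hb⟩
  choose c hc using h1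
  obtain ⟨t, htA, htc⟩ := hA.elim_nhds_subcover (fun b => ball (c b).re (c b).im)
    (fun b hb => isOpen_ball.mem_nhds (by
      rw [mem_ball, dist_comm, Real.dist_eq]
      exact (hc b hb).2.2.1))
  obtain ⟨u, hut, hdis, hcov⟩ := Vitali.exists_disjoint_subfamily_covering_enlargement_closedBall
    ((t.image c : Finset ℂ) : Set ℂ) (fun z : ℂ => z.re) (fun z : ℂ => z.im) δ (by
      intro z hz
      rw [Finset.mem_coe, Finset.mem_image] at hz
      obtain ⟨b, hb, rfl⟩ := hz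
      exact (hc b (htA b hb)).2.1.le) 5 (by norm_num)
  have hufin : u.Finite := (Finset.finite_toSet _).subset hut
  refine ⟨hufin.toFinset, ?_, ?_, ?_⟩
  · intro z hz
    rw [Set.Finite.mem_toFinset] at hz
    have h2 := hut hz
    rw [Finset.mem_coe, Finset.mem_image] at h2
    obtain ⟨b, hb, rfl⟩ := h2
    have := hc b (htA b hb)
    exact ⟨this.1, this.2.1, this.2.2.2⟩
  · rw [Set.Finite.coe_toFinset]
    exact hdis
  · intro x hx
    obtain ⟨b, hb, hxb⟩ := mem_iUnion₂.mp (htc hx)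
    obtain ⟨z, hz, hsub⟩ := hcov (c b) (by
      rw [Finset.mem_coe, Finset.mem_image]; exact ⟨b, hb, rfl⟩)
    exact mem_iUnion₂.mpr ⟨z, by rw [Set.Finite.mem_toFinset]; exact hz,
      hsub (ball_subset_closedBall hxb)⟩

theorem core_cau (D : Dat k h K θ ℓ Off Crit a C κ ρ R) {A : Set ℝ} (hA : IsCompact A)
    (hAB : A ⊆ Bcrit ρ Crit) {lam C₅ : ℝ} (hlam : 0 ≤ lam)
    (hlam' : lam * (50 / ρ ^ 2 * Real.pi) ≤ κ / (1 + κ)) (hC₅ : 0 ≤ C₅)
    (hC₅' : 2 * C + 4 ≤ C₅ * (2 * Real.arctan (k / 2)))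
    {z : ℂ} (hz : z ∈ saw (k / 2) (h / 2) K) (ho : θ z ∈ Off) :
    lam / 630 * (cau A (θ z)).im ≤ F a θ ℓ z + C₅ * (Real.pi - (cau K z).im) := by
  have hk2 : 0 < k / 2 := by linarith [D.hk]
  have hsub : saw (k / 2) (h / 2) K ⊆ saw k h K :=
    saw_mono hk2 (by linarith [D.hk]) (by linarith [D.hh]) subset_rfl
  have hv := D.pos z (hsub hz)
  obtain ⟨J, hJ, hdis, hcov⟩ := exists_family (ρ := ρ) (Crit := Crit) hA hAB
    (show 0 < (θ z).im / 2 by positivity)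
  have h1 := core1 D (fun c hc => (hJ c hc).1) hdis (fun c hc => (hJ c hc).2.2) hlam hlam' hC₅
    hC₅' hz ho (fun c hc => by
      have h2 := hJ c hc
      have h3 : |(θ z - c).im| ≤ ‖θ z - c‖ := Complex.abs_im_le_norm _
      rw [Complex.sub_im] at h3
      have h4 := (le_abs_self _).trans h3
      have h5 : ρ * c.im ≤ 1 * c.im := mul_le_mul_of_nonneg_right D.hρ1 h2.1.le
      linarith [h2.2.1])
  have h2 := cau_le_sum_gr (fun c hc => (hJ c hc).1) hA hcov hv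
    (fun c hc => by linarith [(hJ c hc).2.1])
  have h3 := mul_le_mul_of_nonneg_left h2 (show 0 ≤ lam / 630 by positivity)
  calc lam / 630 * (cau A (θ z)).im ≤ lam / 630 * (630 * ∑ c ∈ J, gr c (θ z)) := h3
    _ = lam * ∑ c ∈ J, gr c (θ z) := by ring
    _ ≤ _ := h1

/-- the bound of `log |p|` at all points, bubbles included -/
theorem core2 (D : Dat k h K θ ℓ Off Crit a C κ ρ R) {A : Set ℝ} (hA : IsCompact A)
    (hAB : A ⊆ Bcrit ρ Crit) {lam C₅ : ℝ} (hlam : 0 ≤ lam)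
    (hlam' : lam * (50 / ρ ^ 2 * Real.pi) ≤ κ / (1 + κ)) (hC₅ : 0 ≤ C₅)
    (hC₅' : 2 * C + 4 ≤ C₅ * (2 * Real.arctan (k / 2)))
    {z₀ : ℂ} (hz₀ : z₀ ∈ saw (k / 2) (h / 2) K) :
    (ℓ z₀).re + S θ z₀ * (lam / 630 * (cau A (θ z₀)).im - C₅ * (Real.pi - (cau K z₀).im)) ≤
      2 * (S θ z₀) ^ a + (lam / 630 * Real.pi + C₅ * Real.pi) := by
  have hk := D.hk
  have hh := D.hh
  have hρ := D.hρ
  have hC := D.hC
  have hKf : volume K ≠ ⊤ := D.hK.measure_lt_top.ne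
  have hAf : volume A ≠ ⊤ := hA.measure_lt_top.ne
  have hk2 : 0 < k / 2 := by positivity
  have hsub : saw (k / 2) (h / 2) K ⊆ saw k h K :=
    saw_mono hk2 (by linarith) (by linarith) subset_rfl
  have hz₀s := hsub hz₀
  have hv₀ := D.pos z₀ hz₀s
  have hpi := Real.pi_pos
  obtain ⟨r₁, hr₁0, hr₁⟩ := D.h4 (θ z₀).im hv₀
  obtain ⟨r, hr₁r, hr, hsph⟩ := hr₁ z₀ hz₀s le_rfl
  have hr0 : 0 < r := by linarith
  have hr4 : r ≤ (θ z₀).im / 4 := by nlinarith [D.hρ1]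
  obtain ⟨s₀, hs₀⟩ : ∃ s, s = S θ z₀ := ⟨_, rfl⟩
  have hs₀1 : 1 ≤ s₀ := by rw [hs₀]; exact D.S_one hz₀s
  have hs₀a : 0 < s₀ ^ a := Real.rpow_pos_of_pos (by linarith) a
  have hlampi : lam / 630 * Real.pi ≤ 1 := by
    have h1 : κ / (1 + κ) ≤ 1 := by
      have := D.hκ
      rw [div_le_one (by positivity)]; linarith
    have h2 : 1 ≤ 50 / ρ ^ 2 := by
      rw [le_div_iff₀ (by positivity)]
      nlinarith [D.hρ1]
    have h3 : lam / 630 * Real.pi ≤ lam * (50 / ρ ^ 2 * Real.pi) := by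
      have h4 : lam / 630 * Real.pi ≤ lam * Real.pi := by
        have : 0 ≤ lam * Real.pi := by positivity
        have h5 : lam / 630 * Real.pi = lam * Real.pi / 630 := by ring
        rw [h5]; linarith
      have h6 : lam * Real.pi ≤ lam * (50 / ρ ^ 2 * Real.pi) := by
        refine mul_le_mul_of_nonneg_left ?_ hlam
        exact le_mul_of_one_le_left hpi.le h2
      linarith
    linarith
  rw [← hs₀]
  set Γ : ℂ → ℂ := fun ζ => ℓ ζ + (s₀ : ℂ) * (((lam / 630 : ℝ) : ℂ) * (-I * cau A (θ ζ)) -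
    (C₅ : ℂ) * ((Real.pi : ℂ) + I * cau K ζ)) with hΓ
  have hΓre : ∀ ζ, (Γ ζ).re = (ℓ ζ).re + s₀ * (lam / 630 * (cau A (θ ζ)).im -
      C₅ * (Real.pi - (cau K ζ).im)) := by
    intro ζ
    have e1 : (-I * cau A (θ ζ)).re = (cau A (θ ζ)).im := by simp
    have e3 := om_re K ζ
    rw [hΓ]
    simp only [Complex.add_re, Complex.sub_re, Complex.re_ofReal_mul, e1,
      Complex.ofReal_re] at e3 ⊢
    rw [e3]
  have hbnd : ∀ ζ ∈ saw k h K, 0 ≤ lam / 630 * (cau A (θ ζ)).im ∧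
      lam / 630 * (cau A (θ ζ)).im ≤ lam / 630 * Real.pi ∧
      0 ≤ C₅ * (Real.pi - (cau K ζ).im) ∧ C₅ * (Real.pi - (cau K ζ).im) ≤ C₅ * Real.pi := by
    intro ζ hζ
    have h1 := cau_le_pi hAf (D.pos ζ hζ)
    have h2 := cau_nonneg hAf (D.pos ζ hζ)
    have h3 := cau_le_pi hKf (saw_im_pos hk hζ)
    have h4 := cau_nonneg hKf (saw_im_pos hk hζ)
    have h5 : 0 ≤ lam / 630 := by positivity
    exact ⟨mul_nonneg h5 h2, mul_le_mul_of_nonneg_left h1 h5, mul_nonneg hC₅ (by linarith),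
      mul_le_mul_of_nonneg_left (by linarith) hC₅⟩
  rw [← hΓre z₀]
  refine maxN hk hh D.hK D.hθ D.pos D.hunif D.hsmall hz₀ hr0 hr4 ?_ ?_ ?_
  · intro ζ hζ hd
    have d1 : DifferentiableAt ℂ θ ζ :=
      D.hθ.differentiableAt ((isOpen_saw k h K).mem_nhds hζ)
    have d2 : DifferentiableAt ℂ ℓ ζ :=
      D.hℓ.differentiableAt ((isOpen_saw k h K).mem_nhds hζ)
    have d3 : DifferentiableAt ℂ (cau K) ζ := differentiableAt_cau hKf (saw_im_pos hk hζ)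
    have d4 : DifferentiableAt ℂ (fun ζ => cau A (θ ζ)) ζ :=
      (differentiableAt_cau hAf (D.pos ζ hζ)).comp ζ d1
    rw [hΓ]
    exact d2.add ((((d4.const_mul _).const_mul _).sub
      (((d3.const_mul _).const_add _).const_mul _)).const_mul _)
  · intro ζ hζ hd hζ'
    have hoζ : θ ζ ∈ Off := hsph (by rw [mem_sphere, dist_eq_norm]; exact hd)
    rw [hΓre ζ]
    have ht := D.t_bd (ζ := ζ) hz₀s hr4 hd.le
    have hSζ := abs_le.mp (D.S_le hz₀s hζ ht)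
    rw [← hs₀] at hSζ
    have hS1 := D.S_one hζ
    have hX := D.X_pos hζ hoζ
    obtain ⟨b1, b2, b3, b4⟩ := hbnd ζ hζ
    have h1 := core_cau D hA hAB hlam hlam' hC₅ hC₅' hζ' hoζ
    have h2 : F a θ ℓ ζ ≤ X a θ ℓ ζ / S θ ζ := by
      unfold F
      exact div_le_div_of_nonneg_left hX.le (by linarith) (by linarith)
    obtain ⟨Rz, hRz⟩ : ∃ Rz, Rz = lam / 630 * (cau A (θ ζ)).im -
      C₅ * (Real.pi - (cau K ζ).im) := ⟨_, rfl⟩
    rw [← hRz]
    have h3 : Rz ≤ X a θ ℓ ζ / S θ ζ := by rw [hRz]; linarith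
    have h4 : S θ ζ * Rz ≤ (S θ ζ) ^ a - (ℓ ζ).re := by
      have h5 := mul_le_mul_of_nonneg_left h3 (show 0 ≤ S θ ζ by linarith)
      have h6 : S θ ζ * (X a θ ℓ ζ / S θ ζ) = (S θ ζ) ^ a - (ℓ ζ).re := by
        rw [mul_div_cancel₀ _ (by linarith : S θ ζ ≠ 0)]; rfl
      linarith
    have h7 : (S θ ζ) ^ a ≤ 2 * s₀ ^ a := by
      have h8 := rpow_bern D.ha0.le D.ha1.le (show 0 < s₀ by linarith)
        (show 0 < S θ ζ by linarith)
      have h9 : a * (S θ ζ - s₀) / s₀ ≤ 1 := by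
        rw [div_le_one (by linarith)]
        have := D.ha0
        have := D.ha1
        nlinarith [hSζ.2]
      have h10 := mul_le_mul_of_nonneg_left (show 1 + a * (S θ ζ - s₀) / s₀ ≤ 2 by linarith)
        hs₀a.le
      linarith
    have h11 : (s₀ - S θ ζ) * Rz ≤ lam / 630 * Real.pi + C₅ * Real.pi := by
      have h12 : |Rz| ≤ lam / 630 * Real.pi + C₅ * Real.pi := by
        rw [hRz, abs_le]; constructor <;> linarith
      have h13 : |s₀ - S θ ζ| ≤ 1 := by rw [abs_le]; constructor <;> linarith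
      calc (s₀ - S θ ζ) * Rz ≤ |(s₀ - S θ ζ) * Rz| := le_abs_self _
        _ = |s₀ - S θ ζ| * |Rz| := abs_mul _ _
        _ ≤ 1 * |Rz| := mul_le_mul_of_nonneg_right h13 (abs_nonneg _)
        _ ≤ _ := by linarith
    have h14 : (ℓ ζ).re + s₀ * Rz = ((ℓ ζ).re + S θ ζ * Rz) + (s₀ - S θ ζ) * Rz := by ring
    rw [h14]
    linarith
  · intro ζ hζ hd hfar
    rw [hΓre ζ]
    have ht := D.t_bd (ζ := ζ) hz₀s hr4 hd
    have hSζ := abs_le.mp (D.S_le hz₀s hζ ht)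
    rw [← hs₀] at hSζ
    obtain ⟨b1, b2, b3, b4⟩ := hbnd ζ hζ
    have hU : (ℓ ζ).re ≤ 2 * C * s₀ := by
      have h6 := D.h3 ζ hζ
      have h7 : C * (-Real.log (θ ζ).im) ≤ C * (2 * s₀) := by
        refine mul_le_mul_of_nonneg_left ?_ hC
        have : S θ ζ = -Real.log (θ ζ).im := rfl
        linarith [hSζ.2]
      linarith
    have h3 : 2 * C + 4 ≤ C₅ * (Real.pi - (cau K ζ).im) :=
      hC₅'.trans (mul_le_mul_of_nonneg_left hfar hC₅)
    have h4 : s₀ * (lam / 630 * (cau A (θ ζ)).im - C₅ * (Real.pi - (cau K ζ).im)) ≤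
        s₀ * (1 - (2 * C + 4)) := mul_le_mul_of_nonneg_left (by linarith) (by linarith)
    have h5 : 0 ≤ lam / 630 * Real.pi + C₅ * Real.pi := by positivity
    nlinarith

end Vale.Agent.P097.H719.OV
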