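import Vale.Agent.P097.H719.OV5
import Vale.Agent.P097.H190.TRb

/-! # One vertex: the almost everywhere theorem -/

open Complex Metric Filter Topology Set MeasureTheory

namespace Vale.Agent.P097.H719.OV

open Vale.Agent.P097.H877.Bd

theorem num_eventually {a : ℝ} (ha0 : 0 < a) (ha1 : a < 1) :
    ∀ᶠ s : ℝ in atTop, ∀ X : ℝ, (1 + a) / 2 * s ^ a ≤ X → 5 * (1 + X / s) ≤ X - a * s ^ a := by
  obtain ⟨c, hc⟩ : ∃ c, c = (1 - a) / (1 + a) := ⟨_, rfl⟩
  have hc0 : 0 < c := by rw [hc]; apply div_pos <;> linarith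
  filter_upwards [(tendsto_rpow_atTop ha0).eventually_ge_atTop (20 / c),
    eventually_ge_atTop (10 / c), eventually_gt_atTop 0] with s h1 h2 h3 X hX
  have hX0 : 10 / c ≤ X := by
    have h4 : 10 / c = (1 / 2) * (20 / c) := by ring
    rw [h4]
    refine le_trans ?_ hX
    have h5 : 0 ≤ s ^ a := Real.rpow_nonneg h3.le a
    have h6 : (1 / 2) * (20 / c) ≤ (1 / 2) * s ^ a := by linarith
    nlinarith
  have hXp : 0 < X := lt_of_lt_of_le (by positivity) hX0
  have h5 : a * s ^ a ≤ (2 * a / (1 + a)) * X := by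
    have h6 : a * s ^ a = (2 * a / (1 + a)) * ((1 + a) / 2 * s ^ a) := by
      have : 1 + a ≠ 0 := by linarith
      field_simp
    rw [h6]
    exact mul_le_mul_of_nonneg_left hX (by positivity)
  have h7 : X - (2 * a / (1 + a)) * X = c * X := by
    rw [hc]
    have : 1 + a ≠ 0 := by linarith
    field_simp
    ring
  have h8 : 5 * (X / s) ≤ c * X / 2 := by
    rw [mul_div_assoc', div_le_iff₀ h3]
    rw [div_le_iff₀ hc0] at h2
    nlinarith
  have h9 : 5 ≤ c * X / 2 := by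
    rw [div_le_iff₀ hc0] at hX0
    linarith
  linarith

theorem pow_eventually {a₁ a : ℝ} (ha : a₁ < a) (C : ℝ) {e : ℝ} (he : 0 < e) :
    ∀ᶠ s : ℝ in atTop, C * s ^ a₁ ≤ e * s ^ a := by
  filter_upwards [(tendsto_rpow_atTop (sub_pos.mpr ha)).eventually_ge_atTop (|C| / e),
    eventually_gt_atTop 0] with s h1 h2
  have h3 : s ^ a = s ^ (a - a₁) * s ^ a₁ := by
    rw [← Real.rpow_add h2]; congr 1; ring
  rw [h3, ← mul_assoc]
  refine mul_le_mul_of_nonneg_right ?_ (Real.rpow_nonneg h2.le _)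
  rw [div_le_iff₀ he] at h1
  linarith [le_abs_self C]

/-- pointwise hypotheses -/
def Pt (θ p : ℂ → ℂ) (Off Crit : Set ℂ) (a₁ ρ : ℝ) (g : ℝ → ℝ) (C κ : ℝ) (z : ℂ) : Prop :=
  (θ z ∈ Off → ‖p z‖ ≤ Real.exp (C * (-Real.log (θ z).im) ^ a₁)) ∧
  (θ z ∈ Off → θ z ∈ Crit → ‖p z‖ ≤ Real.exp (-κ * (-Real.log (θ z).im))) ∧
  ‖p z‖ ≤ Real.exp (C * (-Real.log (θ z).im)) ∧
  ∃ r, g (θ z).im ≤ r ∧ r ≤ ρ / 4 * (θ z).im ∧ sphere (θ z) r ⊆ Off

/-- a logarithm of `p` on a star shaped set -/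
theorem exists_log {U : Set ℂ} (hU : IsOpen U) {c : ℂ} (hc : StarConvex ℝ c U) (hcU : c ∈ U)
    {p : ℂ → ℂ} (hp : DifferentiableOn ℂ p U) (hp0 : ∀ z ∈ U, p z ≠ 0) :
    ∃ ℓ : ℂ → ℂ, DifferentiableOn ℂ ℓ U ∧ ∀ z ∈ U, Complex.exp (ℓ z) = p z := by
  have hd : DifferentiableOn ℂ (fun z => deriv p z / p z) U :=
    (hp.deriv hU).div hp hp0
  obtain ⟨G, hG⟩ := prim_star hU hc hd
  set H : ℂ → ℂ := fun z => p z * Complex.exp (-(G z)) with hH
  have hHd : ∀ z ∈ U, HasDerivAt H 0 z := by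
    intro z hz
    have h1 := (hp.differentiableAt (hU.mem_nhds hz)).hasDerivAt
    have h2 := h1.mul ((hG z hz).neg.cexp)
    refine h2.congr_deriv ?_
    have := hp0 z hz
    field_simp
    ring
  have hconst : ∀ z ∈ U, H z = H c := by
    intro z hz
    have h1 : IsPreconnected U := (StarConvex.isPathConnected hc hcU).isConnected.isPreconnected
    have h2 : DifferentiableOn ℂ H U := fun z hz => (hHd z hz).differentiableAt.differentiableWithinAt
    exact hU.is_const_of_deriv_eq_zero h1 h2 (fun w hw => (hHd w hw).deriv) hz hcU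
  have hHc : H c ≠ 0 := mul_ne_zero (hp0 c hcU) (Complex.exp_ne_zero _)
  refine ⟨fun z => G z + Complex.log (H c), fun z hz =>
    ((hG z hz).differentiableAt.add_const _).differentiableWithinAt, fun z hz => ?_⟩
  rw [Complex.exp_add, Complex.exp_log hHc, ← hconst z hz, hH]
  simp only
  rw [mul_comm, mul_assoc, ← Complex.exp_add]
  simp

theorem Dens.inter_ball {K : Set ℝ} {x : ℝ} (hD : Dens K x) {ρ : ℝ} (hρ : 0 < ρ) :
    Dens (K ∩ closedBall x ρ) x := by
  intro ε hε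
  obtain ⟨r₀, hr₀, h2⟩ := hD ε hε
  refine ⟨min r₀ ρ, lt_min hr₀ hρ, fun r hr hr' => ?_⟩
  refine (measure_mono ?_).trans (h2 r hr (hr'.trans_le (min_le_left _ _)))
  intro t ht
  refine ⟨ht.1, fun htK => ht.2 ⟨htK, ?_⟩⟩
  exact closedBall_subset_closedBall (hr'.trans_le (min_le_right _ _)).le ht.1

/-- the logarithmic depth tends to infinity -/
theorem tendsto_S {θ : ℂ → ℂ} {l : Filter ℂ} {b : ℝ} (h : Tendsto θ l (𝓝 (b : ℂ)))
    (hpos : ∀ᶠ z in l, 0 < (θ z).im) : Tendsto (fun z => -Real.log (θ z).im) l atTop := by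
  have h1 : Tendsto (fun z => (θ z).im) l (𝓝[>] 0) := by
    rw [tendsto_nhdsWithin_iff]
    refine ⟨?_, hpos⟩
    have := (Complex.continuous_im.tendsto (b : ℂ)).comp h
    simpa [Function.comp_def] using this
  exact tendsto_neg_atBot_atTop.comp (Real.tendsto_log_nhdsGT_zero.comp h1)

/-- one step: fixed constants and a compact set of critical boundary points -/
theorem one_vertex_fix {D : Set ℂ} {θ p : ℂ → ℂ} (hθ : DifferentiableOn ℂ θ D)
    (hp : DifferentiableOn ℂ p D) (hpos : ∀ z ∈ D, 0 < (θ z).im) (hp0 : ∀ z ∈ D, p z ≠ 0)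
    {Off Crit : Set ℂ} {a₁ C κ ρ : ℝ} (ha₁0 : 0 ≤ a₁) (ha₁ : a₁ < 1) (hC : 0 ≤ C) (hκ : 0 < κ)
    (hρ : 0 < ρ) (hρ1 : ρ ≤ 1) {g : ℝ → ℝ}
    (hg : ∀ η > 0, ∃ r₁ > 0, ∀ v, η ≤ v → v ≤ 1 → r₁ ≤ g v)
    {A : Set ℝ} (hA : IsCompact A) (hAB : A ⊆ Bcrit ρ Crit) {E : Set ℝ}
    (hE : ∀ x ∈ E, ∃ k > 0, ∃ h > 0, cone k h x ⊆ D ∧
      (∃ b ∈ A, Tendsto θ (𝓝[cone k h x] (x : ℂ)) (𝓝 (b : ℂ))) ∧
      ∀ᶠ z in 𝓝[cone k h x] (x : ℂ), Pt θ p Off Crit a₁ ρ g C κ z) :
    volume E = 0 := by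
  classical
  rcases A.eq_empty_or_nonempty with hne | hne
  · have : E = ∅ := by
      ext x
      simp only [mem_empty_iff_false, iff_false]
      intro hx
      obtain ⟨k, hk, h, hh, -, ⟨b, hb, -⟩, -⟩ := hE x hx
      rw [hne] at hb
      exact hb
    rw [this, measure_empty]
  obtain ⟨RA, hRA⟩ := hA.isBounded.exists_norm_le
  obtain ⟨R, hR⟩ : ∃ R, R = RA + 1 := ⟨_, rfl⟩
  obtain ⟨a, ha⟩ : ∃ a, a = (1 + a₁) / 2 := ⟨_, rfl⟩
  have ha0 : 0 < a := by rw [ha]; linarith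
  have ha1 : a < 1 := by rw [ha]; linarith
  have haa : a₁ < a := by rw [ha]; linarith
  -- the threshold
  have hev : ∀ᶠ s : ℝ in atTop, 1 ≤ s ∧
      (∀ X : ℝ, (1 + a) / 2 * s ^ a ≤ X → 5 * (1 + X / s) ≤ X - a * s ^ a) ∧
      C * s ^ a₁ ≤ (1 - a) / 2 * s ^ a :=
    (eventually_ge_atTop 1).and ((num_eventually ha0 ha1).and
      (pow_eventually haa C (by linarith)))
  obtain ⟨s₁, hs₁⟩ := eventually_atTop.mp hev
  obtain ⟨σ, hσ⟩ : ∃ σ, σ = min (1 / 2) (Real.exp (-s₁)) := ⟨_, rfl⟩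
  have hσ0 : 0 < σ := by rw [hσ]; exact lt_min (by norm_num) (Real.exp_pos _)
  have hσ1 : σ ≤ 1 / 2 := by rw [hσ]; exact min_le_left _ _
  have hσs : ∀ v, 0 < v → v ≤ σ → s₁ ≤ -Real.log v := by
    intro v hv hvσ
    have h1 : v ≤ Real.exp (-s₁) := hvσ.trans (by rw [hσ]; exact min_le_right _ _)
    have h2 := Real.log_le_log hv h1
    rw [Real.log_exp] at h2
    linarith
  -- Egorov
  set f : ℂ → ℂ := fun z => if Pt θ p Off Crit a₁ ρ g C κ z ∧ ‖θ z‖ ≤ R then
    (((θ z).im : ℝ) : ℂ) else 1 with hf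
  have hfE : ∀ x ∈ E, ∃ k > 0, ∃ h > 0, cone k h x ⊆ D ∧
      Tendsto f (𝓝[cone k h x] (x : ℂ)) (𝓝 0) := by
    intro x hx
    obtain ⟨k, hk, h, hh, hD, ⟨b, hb, ht⟩, hP⟩ := hE x hx
    refine ⟨k, hk, h, hh, hD, ?_⟩
    have h1 : ∀ᶠ z in 𝓝[cone k h x] (x : ℂ), ‖θ z‖ < R := by
      refine ht.norm.eventually_lt_const ?_
      have := hRA b hb
      rw [Real.norm_eq_abs] at this
      rw [Complex.norm_real, Real.norm_eq_abs, hR]
      linarith
    have h2 : Tendsto (fun z => (((θ z).im : ℝ) : ℂ)) (𝓝[cone k h x] (x : ℂ)) (𝓝 0) := by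
      have h3 := (Complex.continuous_im.tendsto (b : ℂ)).comp ht
      have h4 := (Complex.continuous_ofReal.tendsto _).comp h3
      simpa [Function.comp_def] using h4
    refine h2.congr' ?_
    filter_upwards [h1, hP] with z hz1 hz2
    rw [hf]
    simp only
    rw [if_pos ⟨hz2, hz1.le⟩]
  have hego := H190.TR.egorov_cone hfE
  -- Loewner
  have hloew := H190.TR.loew hθ hpos hA hne (E := E) (fun x hx => by
    obtain ⟨k, hk, h, hh, hD, ⟨b, hb, ht⟩, -⟩ := hE x hx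
    refine ⟨k, hk, h, hh, hD, ?_⟩
    have h1 : (b : ℂ) ∈ H190.TR.rl A := ⟨b, hb, rfl⟩
    have h2 : infDist (b : ℂ) (H190.TR.rl A) = 0 := infDist_zero_of_mem h1
    have h3 := (continuous_infDist_pt (H190.TR.rl A)).continuousAt.tendsto.comp ht
    rw [h2] at h3
    exact h3)
  -- privalov
  have hpriv := privalov hp (E := {x : ℝ | ∃ k > 0, ∃ h > 0, cone k h x ⊆ D ∧
    Tendsto p (𝓝[cone k h x] (x : ℂ)) (𝓝 0)}) (fun x hx => hx)
  have hmain : ∀ᵐ x : ℝ, x ∈ E → False := by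
    filter_upwards [hego, hloew, hpriv] with x h1 h2 h3 hxE
    obtain ⟨k, hk, h, hh, K, hK, hxK, hdens, hsD, -, hunif⟩ := h1 hxE
    obtain ⟨δ, hδ0, hδ⟩ := hunif σ hσ0
    -- the new height
    obtain ⟨h', hh'⟩ : ∃ h', h' = min h δ := ⟨_, rfl⟩
    have hh'0 : 0 < h' := by rw [hh']; exact lt_min hh hδ0
    have hk2 : 0 < k / 2 := by positivity
    have hat0 : 0 < Real.arctan (k / 2) := Real.arctan_pos.mpr hk2
    have hat1 := Real.arctan_lt_pi_div_two (k / 2)
    obtain ⟨c, hc⟩ : ∃ c, c = Real.pi - 2 * Real.arctan (k / 2) := ⟨_, rfl⟩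
    have hc0 : 0 < c := by rw [hc]; linarith
    obtain ⟨ρ₀, hρ₀⟩ : ∃ r, r = min (h' / 4 * c) (k * h' / 4) := ⟨_, rfl⟩
    have hρ₀0 : 0 < ρ₀ := by rw [hρ₀]; exact lt_min (by positivity) (by positivity)
    set K' : Set ℝ := K ∩ closedBall x ρ₀ with hK'
    have hK'c : IsCompact K' := hK.inter_right isClosed_closedBall
    have hK'f : volume K' ≠ ⊤ := hK'c.measure_lt_top.ne
    have hK'sub : saw k h' K' ⊆ saw k h K :=
      saw_mono hk le_rfl (by rw [hh']; exact min_le_left _ _) inter_subset_left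
    have hgood : ∀ z ∈ saw k h' K', Pt θ p Off Crit a₁ ρ g C κ z ∧ ‖θ z‖ ≤ R ∧
        (θ z).im ≤ σ := by
      intro z hz
      obtain ⟨y, hyK, hy⟩ := mem_saw.mp hz
      have h4 := hδ y hyK.1 z ⟨hy.1, hy.2.trans_le (by rw [hh']; exact min_le_right _ _)⟩
      rw [hf] at h4
      simp only at h4
      split_ifs at h4 with h5
      · refine ⟨h5.1, h5.2, ?_⟩
        rw [Complex.norm_real, Real.norm_eq_abs] at h4
        exact (le_abs_self _).trans h4
      · rw [norm_one] at h4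
        linarith
    have hvol : (volume K').toReal / (h' / 2) ≤ c := by
      rw [div_le_iff₀ (by positivity)]
      have h4 : volume K' ≤ ENNReal.ofReal (2 * ρ₀) := by
        rw [← Real.volume_closedBall]; exact measure_mono inter_subset_right
      have h5 := ENNReal.toReal_le_of_le_ofReal (by positivity) h4
      have h6 : ρ₀ ≤ h' / 4 * c := by rw [hρ₀]; exact min_le_left _ _
      linarith
    have hxK' : x ∈ K' := ⟨hxK, mem_closedBall_self hρ₀0.le⟩
    -- star shaped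
    obtain ⟨c₀, hc₀⟩ : ∃ c₀ : ℂ, c₀ = ⟨x, h' / 2⟩ := ⟨_, rfl⟩
    have hc₀mem : ∀ y ∈ K', c₀ ∈ cone k h' y := by
      intro y hy
      have h4 : |x - y| ≤ ρ₀ := by
        have := hy.2
        rw [mem_closedBall, dist_comm, Real.dist_eq] at this
        exact this
      have h5 : ρ₀ ≤ k * h' / 4 := by rw [hρ₀]; exact min_le_right _ _
      have h6 : 0 < k * h' := by positivity
      rw [hc₀]
      refine ⟨?_, ?_⟩
      · simp only
        linarith
      · simp only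
        linarith
    have hstar := starConvex_saw hc₀mem
    have hsD' : saw k h' K' ⊆ D := hK'sub.trans hsD
    obtain ⟨ℓ, hℓd, hℓ⟩ := exists_log (isOpen_saw k h' K') hstar
      (mem_saw.mpr ⟨x, hxK', hc₀mem x hxK'⟩) (hp.mono hsD') (fun z hz => hp0 z (hsD' hz))
    have hℓn : ∀ z ∈ saw k h' K', ∀ t : ℝ, ‖p z‖ ≤ Real.exp t → (ℓ z).re ≤ t := by
      intro z hz t ht
      rw [← hℓ z hz, Complex.norm_exp] at ht
      exact Real.exp_le_exp.mp ht
    have hS : ∀ z ∈ saw k h' K', s₁ ≤ -Real.log (θ z).im := fun z hz =>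
      hσs _ (hpos z (hsD' hz)) (hgood z hz).2.2
    -- the data
    have Dt : Dat k h' K' θ ℓ Off Crit a C κ ρ R := by
      refine ⟨hk, hh'0, hK'c, ha0, ha1, hC, hκ, hρ, hρ1, hθ.mono hsD', hℓd,
        fun z hz => hpos z (hsD' hz), fun z hz => (hs₁ _ (hS z hz)).1, fun z hz => ?_,
        fun z hz => (hs₁ _ (hS z hz)).2.1, fun z hz => (hgood z hz).2.1, ?_, ?_, ?_, ?_, ?_, ?_⟩
      · have := (hgood z hz).2.2
        linarith
      · intro z hz ho
        refine hℓn z hz _ (((hgood z hz).1.1 ho).trans (Real.exp_le_exp.mpr ?_))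
        exact (hs₁ _ (hS z hz)).2.2
      · intro z hz ho hcr
        exact hℓn z hz _ ((hgood z hz).1.2.1 ho hcr)
      · intro z hz
        exact hℓn z hz _ (hgood z hz).1.2.2.1
      · intro η hη
        obtain ⟨r₁, hr₁, hgr⟩ := hg η hη
        refine ⟨r₁, hr₁, fun z hz hηz => ?_⟩
        obtain ⟨r, hr1, hr2, hr3⟩ := (hgood z hz).1.2.2.2
        exact ⟨r, (hgr _ hηz (by linarith [(hgood z hz).2.2])).trans hr1, hr2, hr3⟩
      · intro ε hε
        obtain ⟨δ', hδ', h4⟩ := hunif (min ε (1 / 2)) (lt_min hε (by norm_num))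
        refine ⟨δ', hδ', fun y hy z hz hzs => ?_⟩
        have h5 := h4 y hy.1 z hz
        rw [hf] at h5
        simp only at h5
        rw [if_pos ⟨(hgood z hzs).1, (hgood z hzs).2.1⟩, Complex.norm_real,
          Real.norm_eq_abs] at h5
        exact ((le_abs_self _).trans h5).trans (min_le_left _ _)
      · rw [← hc]; exact hvol
    -- constants
    have hpi := Real.pi_pos
    obtain ⟨lam, hlam⟩ : ∃ lam, lam = κ / (1 + κ) / (50 / ρ ^ 2 * Real.pi) := ⟨_, rfl⟩
    have hlam0 : 0 < lam := by rw [hlam]; positivity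
    have hlam' : lam * (50 / ρ ^ 2 * Real.pi) ≤ κ / (1 + κ) := by
      rw [hlam, div_mul_cancel₀]
      positivity
    obtain ⟨C₅, hC₅⟩ : ∃ C₅, C₅ = (2 * C + 4) / (2 * Real.arctan (k / 2)) := ⟨_, rfl⟩
    have hC₅0 : 0 < C₅ := by rw [hC₅]; positivity
    have hC₅' : 2 * C + 4 ≤ C₅ * (2 * Real.arctan (k / 2)) := by
      rw [hC₅, div_mul_cancel₀]
      positivity
    have hcore := fun z₀ hz₀ => core2 (z₀ := z₀) Dt hA hAB hlam0.le hlam' hC₅0.le hC₅' hz₀
    -- near `x`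
    obtain ⟨w, hw⟩ : ∃ w, w = lam / 630 * Real.pi / 2 := ⟨_, rfl⟩
    have hw0 : 0 < w := by rw [hw]; positivity
    have hDK' := Dens.inter_ball hdens hρ₀0
    obtain ⟨h₃, hh₃, hge⟩ := hDK'.cau_ge hK'c.measurableSet hK'f hk2
      (c := Real.pi - w / (4 * C₅)) (by
        have : 0 < w / (4 * C₅) := by positivity
        linarith)
    obtain ⟨h₄, hh₄, hh₄D, hh₄t⟩ := h2 hxE (k / 2) hk2
    -- the final cone
    obtain ⟨h₅, hh₅⟩ : ∃ h₅, h₅ = min (min h₃ h₄) (h' / 2) := ⟨_, rfl⟩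
    have hh₅0 : 0 < h₅ := by rw [hh₅]; exact lt_min (lt_min hh₃ hh₄) (by positivity)
    have hsub3 : cone (k / 2) h₅ x ⊆ cone (k / 2) h₃ x :=
      cone_mono hk2 le_rfl (by rw [hh₅]; exact (min_le_left _ _).trans (min_le_left _ _))
    have hsub4 : cone (k / 2) h₅ x ⊆ cone (k / 2) h₄ x :=
      cone_mono hk2 le_rfl (by rw [hh₅]; exact (min_le_left _ _).trans (min_le_right _ _))
    have hsub5 : cone (k / 2) h₅ x ⊆ saw (k / 2) (h' / 2) K' := fun z hz =>
      mem_saw.mpr ⟨x, hxK', cone_mono hk2 le_rfl (by rw [hh₅]; exact min_le_right _ _) hz⟩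
    have hsaw : saw (k / 2) (h' / 2) K' ⊆ saw k h' K' :=
      saw_mono hk2 (by linarith) (by linarith) subset_rfl
    -- `θ → b` along the small cone
    have hSt : Tendsto (fun z => -Real.log (θ z).im) (𝓝[cone (k / 2) h₅ x] (x : ℂ)) atTop := by
      -- from uniform convergence
      have h6 : Tendsto (fun z => (θ z).im) (𝓝[cone (k / 2) h₅ x] (x : ℂ)) (𝓝[>] 0) := by
        rw [tendsto_nhdsWithin_iff]
        refine ⟨?_, ?_⟩
        · rw [Metric.tendsto_nhds]
          intro ε hε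
          obtain ⟨δ', hδ', h7⟩ := Dt.hunif (ε / 2) (by positivity)
          have h8 : ∀ᶠ z : ℂ in 𝓝 (x : ℂ), z.im < δ' :=
            (isOpen_lt Complex.continuous_im continuous_const).mem_nhds (by simpa using hδ')
          filter_upwards [mem_nhdsWithin_of_mem_nhds h8, self_mem_nhdsWithin] with z hz1 hz2
          have hzs := hsaw (hsub5 hz2)
          have h9 := h7 x hxK' z ⟨by
            have := hz2.1
            have h10 := cone_im_pos hk2 hz2
            nlinarith, hz1⟩ hzs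
          have h11 := Dt.pos z hzs
          rw [Real.dist_eq, sub_zero, abs_of_pos h11]
          linarith
        · filter_upwards [self_mem_nhdsWithin] with z hz
          exact Dt.pos z (hsaw (hsub5 hz))
      exact tendsto_neg_atBot_atTop.comp (Real.tendsto_log_nhdsGT_zero.comp h6)
    have hcA : ∀ᶠ z in 𝓝[cone (k / 2) h₅ x] (x : ℂ), 3 / 4 * Real.pi < (cau A (θ z)).im :=
      (hh₄t.mono_left (nhdsWithin_mono _ hsub4)).eventually_const_lt (by linarith)
    have hneg : Tendsto (fun s : ℝ => 2 * s ^ a + (lam / 630 * Real.pi + C₅ * Real.pi) -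
        w / 4 * s) atTop atBot := by
      have h6 : ∀ᶠ s : ℝ in atTop, 2 * s ^ a ≤ w / 8 * s := by
        have := pow_eventually (a₁ := a) (a := 1) ha1 2 (show 0 < w / 8 by positivity)
        simpa using this
      have h7 : Tendsto (fun s : ℝ => (lam / 630 * Real.pi + C₅ * Real.pi) + -(w / 8) * s)
          atTop atBot :=
        tendsto_atBot_add_const_left _ _
          (tendsto_id.const_mul_atTop_of_neg (by linarith))
      refine tendsto_atBot_mono' _ ?_ h7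
      filter_upwards [h6] with s hs
      linarith
    have hpt : Tendsto p (𝓝[cone (k / 2) h₅ x] (x : ℂ)) (𝓝 0) := by
      rw [tendsto_zero_iff_norm_tendsto_zero]
      have h6 := Real.tendsto_exp_atBot.comp (hneg.comp hSt)
      refine squeeze_zero' (Eventually.of_forall fun z => norm_nonneg _) ?_ h6
      filter_upwards [hcA, self_mem_nhdsWithin] with z hz1 hz2
      have hzs' := hsub5 hz2
      have hzs := hsaw hzs'
      rw [← hℓ z hzs, Complex.norm_exp]
      simp only [Function.comp_apply]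
      refine Real.exp_le_exp.mpr ?_
      have h7 := hcore z hzs'
      have h8 := hge z (hsub3 hz2)
      have h9 : S θ z = -Real.log (θ z).im := rfl
      rw [h9] at h7
      have hs1 : 1 ≤ -Real.log (θ z).im := Dt.one z hzs
      obtain ⟨s, hs⟩ : ∃ s, s = -Real.log (θ z).im := ⟨_, rfl⟩
      rw [← hs] at h7 hs1 ⊢
      have h10 : w / 4 ≤ lam / 630 * (cau A (θ z)).im - C₅ * (Real.pi - (cau K' z).im) := by
        have h11 : lam / 630 * (3 / 4 * Real.pi) ≤ lam / 630 * (cau A (θ z)).im :=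
          mul_le_mul_of_nonneg_left hz1.le (by positivity)
        have h12 : C₅ * (Real.pi - (cau K' z).im) ≤ C₅ * (w / (4 * C₅)) :=
          mul_le_mul_of_nonneg_left (by linarith) hC₅0.le
        have h13 : C₅ * (w / (4 * C₅)) = w / 4 := by field_simp
        have h14 : lam / 630 * (3 / 4 * Real.pi) = 3 / 2 * w := by rw [hw]; ring
        linarith
      have h15 := mul_le_mul_of_nonneg_left h10 (show 0 ≤ s by linarith)
      linarith
    have hcD : cone (k / 2) h₅ x ⊆ D := (hsub5.trans hsaw).trans hsD'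
    obtain ⟨k₆, hk₆, h₆, hh₆, hD₆, h0⟩ := h3 ⟨k / 2, hk2, h₅, hh₅0, hcD, hpt⟩
    have hmem : (⟨x, h₆ / 2⟩ : ℂ) ∈ cone k₆ h₆ x := by
      refine ⟨?_, ?_⟩
      · simp only [sub_self, abs_zero]; positivity
      · simp only; linarith
    exact hp0 _ (hD₆ hmem) (h0 _ hmem)
  rw [ae_iff] at hmain
  refine measure_mono_null (fun x hx => ?_) hmain
  simp only [mem_ofPred_eq, Classical.not_imp]
  exact ⟨hx, fun h => h⟩

end Vale.Agent.P097.H719.OV
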