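import Vale.Agent.P097.H719.OV6
import Vale.Agent.P097.H190.TRe

/-! # One vertex: the theorem -/

open Complex Metric Filter Topology Set MeasureTheory

namespace Vale.Agent.P097.H719.OV

open Vale.Agent.P097.H877.Bd

theorem Pt.mono {θ p : ℂ → ℂ} {Off Crit : Set ℂ} {a₁ ρ : ℝ} {g : ℝ → ℝ} {C κ C' κ' : ℝ}
    (hC : C ≤ C') (hκ : κ' ≤ κ) {z : ℂ} (hs : 0 ≤ -Real.log (θ z).im)
    (h : Pt θ p Off Crit a₁ ρ g C κ z) : Pt θ p Off Crit a₁ ρ g C' κ' z := by
  obtain ⟨h1, h2, h3, h4⟩ := h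
  refine ⟨fun ho => (h1 ho).trans (Real.exp_le_exp.mpr ?_),
    fun ho hc => (h2 ho hc).trans (Real.exp_le_exp.mpr ?_),
    h3.trans (Real.exp_le_exp.mpr ?_), h4⟩
  · exact mul_le_mul_of_nonneg_right hC (Real.rpow_nonneg hs _)
  · exact mul_le_mul_of_nonneg_right (by linarith) hs
  · exact mul_le_mul_of_nonneg_right hC hs

/-- a measurable set of real numbers is the union of countably many compact sets and a null set -/
theorem exhaust {B : Set ℝ} (hB : MeasurableSet B) : ∃ A : ℕ → Set ℝ, (∀ n, IsCompact (A n)) ∧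
    (∀ n, A n ⊆ B) ∧ volume (B \ ⋃ n, A n) = 0 := by
  have h1 : ∀ m j : ℕ, ∃ A : Set ℝ, A ⊆ B ∩ closedBall 0 m ∧ IsCompact A ∧
      volume ((B ∩ closedBall 0 m) \ A) < ENNReal.ofReal (1 / ((j : ℝ) + 1)) := by
    intro m j
    have hm : MeasurableSet (B ∩ closedBall (0 : ℝ) m) := hB.inter measurableSet_closedBall
    have hfin : volume (B ∩ closedBall (0 : ℝ) m) ≠ ⊤ :=
      ((measure_mono inter_subset_right).trans_lt
        (isCompact_closedBall (0 : ℝ) m).measure_lt_top).ne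
    obtain ⟨A, hA1, hA2, hA3⟩ := hm.exists_isCompact_sdiff_lt hfin
      (show ENNReal.ofReal (1 / ((j : ℝ) + 1)) ≠ 0 by
        rw [Ne, ENNReal.ofReal_eq_zero, not_le]; positivity)
    exact ⟨A, hA1, hA2, hA3⟩
  choose A hAs hAc hAv using h1
  refine ⟨fun n => A n.unpair.1 n.unpair.2, fun n => hAc _ _,
    fun n => (hAs _ _).trans inter_subset_left, ?_⟩
  have h2 : B \ ⋃ n : ℕ, A n.unpair.1 n.unpair.2 ⊆
      ⋃ m : ℕ, ⋂ j : ℕ, (B ∩ closedBall 0 m) \ A m j := by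
    intro x hx
    obtain ⟨m, hm⟩ := exists_nat_ge ‖x‖
    refine mem_iUnion.mpr ⟨m, mem_iInter.mpr fun j => ⟨⟨hx.1, ?_⟩, fun hxA => hx.2 ?_⟩⟩
    · rw [mem_closedBall, dist_zero_right]; exact hm
    · refine mem_iUnion.mpr ⟨Nat.pair m j, ?_⟩
      simpa using hxA
  refine measure_mono_null h2 (measure_iUnion_null fun m => ?_)
  refine le_antisymm ?_ zero_le
  have h3 : Tendsto (fun j : ℕ => ENNReal.ofReal (1 / ((j : ℝ) + 1))) atTop (𝓝 0) := by
    have := ENNReal.tendsto_ofReal (tendsto_one_div_add_atTop_nhds_zero_nat (𝕜 := ℝ))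
    simpa using this
  refine ge_of_tendsto' h3 fun j => ?_
  exact (measure_mono (iInter_subset _ j)).trans (hAv m j).le

/-- **ONE VERTEX.**  `θ, p` holomorphic on the open set `D`, `Im θ > 0`, `p` zero free.
Let `E` be a set of real points `x` such that, on some cone at `x`, `θ` tends to a critical
boundary point `b` and eventually
* `‖p‖ ≤ exp (C s ^ a₁)` where `θ` is in `Off`, (`s = log (1 / Im θ)`, `a₁ < 1`),
* `‖p‖ ≤ exp (- κ s)` where `θ` is in `Off ∩ Crit`,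
* `‖p‖ ≤ exp (C s)` everywhere,
* some circle of centre `θ z` and radius `r`, `g (Im θ z) ≤ r ≤ ρ / 4 * Im θ z`, is in `Off`.
Then `E` is a null set. -/
theorem one_vertex {D : Set ℂ} (hD : IsOpen D) {θ p : ℂ → ℂ} (hθ : DifferentiableOn ℂ θ D)
    (hp : DifferentiableOn ℂ p D) (hpos : ∀ z ∈ D, 0 < (θ z).im) (hp0 : ∀ z ∈ D, p z ≠ 0)
    {Off Crit : Set ℂ} {a₁ ρ : ℝ} (ha₁0 : 0 ≤ a₁) (ha₁ : a₁ < 1)
    (hρ : 0 < ρ) (hρ1 : ρ ≤ 1) {g : ℝ → ℝ}
    (hg : ∀ η > 0, ∃ r₁ > 0, ∀ v, η ≤ v → v ≤ 1 → r₁ ≤ g v) {E : Set ℝ}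
    (hE : ∀ x ∈ E, ∃ k > 0, ∃ h > 0, cone k h x ⊆ D ∧
      (∃ b ∈ Bcrit ρ Crit, Tendsto θ (𝓝[cone k h x] (x : ℂ)) (𝓝 (b : ℂ))) ∧
      ∃ C κ : ℝ, 0 < κ ∧ ∀ᶠ z in 𝓝[cone k h x] (x : ℂ), Pt θ p Off Crit a₁ ρ g C κ z) :
    volume E = 0 := by
  obtain ⟨A, hAc, hAB, hA0⟩ := exhaust (measurableSet_Bcrit ρ Crit)
  have hNm : MeasurableSet (Bcrit ρ Crit \ ⋃ n, A n) :=
    (measurableSet_Bcrit ρ Crit).diff (MeasurableSet.iUnion fun n => (hAc n).measurableSet)
  have hnull := H190.TR.null1 hD hθ hpos hNm hA0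
  -- the pieces
  set P : ℕ → ℕ → Set ℝ := fun n m => {x | ∃ k > 0, ∃ h > 0, cone k h x ⊆ D ∧
      (∃ b ∈ A n, Tendsto θ (𝓝[cone k h x] (x : ℂ)) (𝓝 (b : ℂ))) ∧
      ∀ᶠ z in 𝓝[cone k h x] (x : ℂ), Pt θ p Off Crit a₁ ρ g m (1 / ((m : ℝ) + 1)) z} with hP
  have hP0 : ∀ n m, volume (P n m) = 0 := fun n m =>
    one_vertex_fix hθ hp hpos hp0 ha₁0 ha₁ (Nat.cast_nonneg m) (by positivity) hρ hρ1 hg
      (hAc n) (hAB n) (E := P n m) (fun x hx => hx)
  rw [ae_iff] at hnull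
  refine measure_mono_null (fun x hx => ?_)
    (measure_union_null hnull (measure_iUnion_null fun n => measure_iUnion_null fun m => hP0 n m))
  obtain ⟨k, hk, h, hh, hcD, ⟨b, hb, ht⟩, C, κ, hκ, hC⟩ := hE x hx
  by_cases hbA : b ∈ ⋃ n, A n
  · right
    obtain ⟨n, hn⟩ := mem_iUnion.mp hbA
    obtain ⟨m, hm⟩ := exists_nat_ge (max C (1 / κ))
    refine mem_iUnion.mpr ⟨n, mem_iUnion.mpr ⟨m, k, hk, h, hh, hcD, ⟨b, hn, ht⟩, ?_⟩⟩
    have hpos' : ∀ᶠ z in 𝓝[cone k h x] (x : ℂ), 0 < (θ z).im := by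
      filter_upwards [self_mem_nhdsWithin] with z hz
      exact hpos z (hcD hz)
    have hs := (tendsto_S ht hpos').eventually_ge_atTop 0
    filter_upwards [hC, hs] with z hz1 hz2
    refine hz1.mono ((le_max_left _ _).trans hm) ?_ hz2
    have h1 : 1 / κ ≤ m := (le_max_right _ _).trans hm
    rw [div_le_iff₀ hκ] at h1
    rw [div_le_iff₀ (by positivity)]
    nlinarith
  · left
    simp only [mem_ofPred_eq, not_forall, not_not]
    refine ⟨⟨k, hk, h, hh, hcD⟩, b, ⟨hb, hbA⟩, ?_⟩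
    -- the vertical sequence
    have hseq : Tendsto (fun n : ℕ => (x : ℂ) + ((1 / ((n : ℝ) + 1) : ℝ) : ℂ) * I) atTop
        (𝓝[cone k h x] (x : ℂ)) := by
      rw [tendsto_nhdsWithin_iff]
      constructor
      · have h1 := tendsto_one_div_add_atTop_nhds_zero_nat (𝕜 := ℝ)
        have h2 := (Complex.continuous_ofReal.tendsto _).comp h1
        have h3 := (h2.mul_const I).const_add (x : ℂ)
        simpa [Function.comp_def] using h3
      · have h1 := tendsto_one_div_add_atTop_nhds_zero_nat (𝕜 := ℝ)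
        filter_upwards [h1.eventually_lt_const hh] with n hn
        have h2 : (0 : ℝ) < 1 / ((n : ℝ) + 1) := by positivity
        refine ⟨?_, ?_⟩
        · simp only [Complex.add_re, Complex.ofReal_re, Complex.mul_re, Complex.I_re, mul_zero,
            Complex.ofReal_im, Complex.I_im, Complex.add_im, Complex.mul_im, zero_add]
          simp only [zero_mul, sub_self, add_zero, abs_zero, mul_one]
          positivity
        · simp only [Complex.add_im, Complex.ofReal_im, Complex.mul_im, Complex.ofReal_re,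
            Complex.I_im, mul_one, Complex.I_re, mul_zero, add_zero, zero_add]
          exact hn
    have h4 := ht.comp hseq
    refine h4.congr' ?_
    have h5 : ∀ᶠ n : ℕ in atTop, (x : ℂ) + ((1 / ((n : ℝ) + 1) : ℝ) : ℂ) * I ∈ cone k h x :=
      (tendsto_nhdsWithin_iff.mp hseq).2
    filter_upwards [h5] with n hn
    simp only [Function.comp_apply]
    rw [indicator_of_mem (hcD hn)]

end Vale.Agent.P097.H719.OV
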